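import Mathlib

/-! Causal lists of queries: the query loop without exceptions.

`L h` = list of the queries of an adaptive procedure for the answers `h`. The procedure is written as
a TOTAL function of the answers (missing answers are replaced by any default value). The only thing
needed is that the list is causal: for two oracles `h`, `h'` the lists `L h`, `L h'` are equal or
have a common prefix which contains a query with different answers (relation `Ok`). Then the first
query of the speculative list `L h'` which is not yet known is a query of the true list `L h`; if all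
its queries are known, then `L h' = L h` and all answers on it are the true ones.

`Ok` is preserved by concatenation, `flatMap`, and `nub` (keep the first occurrences). -/

set_option autoImplicit false

namespace Vale.Agent.P315.H207

variable {Q A E : Type*}

/-- The lists are equal, or a common prefix contains a query with different answers. -/
def Ok (h h' : Q → A) (l l' : List Q) : Prop :=
  l = l' ∨ ∃ p, p <+: l ∧ p <+: l' ∧ ∃ q ∈ p, h q ≠ h' q

namespace Ok

variable {h h' : Q → A} {l l' : List Q}

theorem refl (h h' : Q → A) (l : List Q) : Ok h h' l l := Or.inl rfl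

theorem of_eq (e : l = l') : Ok h h' l l' := Or.inl e

theorem symm (H : Ok h h' l l') : Ok h' h l' l := by
  rcases H with e | ⟨p, h1, h2, q, hq, hne⟩
  · exact Or.inl e.symm
  · exact Or.inr ⟨p, h2, h1, q, hq, hne.symm⟩

/-- If the answers agree on the first list then the lists are equal. -/
theorem eq_of_agree (H : Ok h h' l l') (hag : ∀ q ∈ l, h q = h' q) : l = l' := by
  rcases H with e | ⟨p, h1, _, q, hq, hne⟩
  · exact e
  · exact absurd (hag q (h1.subset hq)) hne

theorem append {l₂ l₂' : List Q} (H : Ok h h' l l')
    (H2 : l = l' → (∀ q ∈ l, h q = h' q) → Ok h h' l₂ l₂') :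
    Ok h h' (l ++ l₂) (l' ++ l₂') := by
  rcases H with e | ⟨p, h1, h2, q, hq, hne⟩
  · subst e
    by_cases hag : ∀ q ∈ l, h q = h' q
    · rcases H2 rfl hag with e | ⟨p, h1, h2, q, hq, hne⟩
      · exact Or.inl (by rw [e])
      · exact Or.inr ⟨l ++ p, (List.prefix_append_right_inj l).2 h1,
          (List.prefix_append_right_inj l).2 h2, q, List.mem_append_right _ hq, hne⟩
    · push Not at hag
      obtain ⟨q, hq, hne⟩ := hag
      exact Or.inr ⟨l, List.prefix_append _ _, List.prefix_append _ _, q, hq, hne⟩
  · exact Or.inr ⟨p, h1.trans (List.prefix_append _ _), h2.trans (List.prefix_append _ _),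
      q, hq, hne⟩

theorem flatMap {es : List E} {F F' : E → List Q} (H : ∀ e ∈ es, Ok h h' (F e) (F' e)) :
    Ok h h' (es.flatMap F) (es.flatMap F') := by
  induction es with
  | nil => exact Or.inl rfl
  | cons e es ih =>
    simp only [List.flatMap_cons]
    exact (H e (by simp)).append fun _ _ => ih fun e he => H e (by simp [he])

end Ok

/-! ### Keep the first occurrences -/

variable [DecidableEq Q]

/-- Append an element if it is new. -/
def push (acc : List Q) (q : Q) : List Q := if q ∈ acc then acc else acc ++ [q]

/-- Keep the first occurrences. -/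
def nub (l : List Q) : List Q := l.foldl push []

theorem prefix_foldl_push (l acc : List Q) : acc <+: l.foldl push acc := by
  induction l generalizing acc with
  | nil => exact List.prefix_rfl
  | cons q l ih =>
    refine List.IsPrefix.trans ?_ (ih (push acc q))
    unfold push
    split_ifs
    · exact List.prefix_rfl
    · exact List.prefix_append _ _

theorem nub_prefix {p l : List Q} (hp : p <+: l) : nub p <+: nub l := by
  obtain ⟨t, rfl⟩ := hp
  unfold nub
  rw [List.foldl_append]
  exact prefix_foldl_push _ _

theorem mem_foldl_push {q : Q} (l acc : List Q) : q ∈ l.foldl push acc ↔ q ∈ acc ∨ q ∈ l := by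
  induction l generalizing acc with
  | nil => simp
  | cons a l ih =>
    rw [List.foldl_cons, ih]
    unfold push
    split_ifs with ha
    · constructor
      · rintro (h | h)
        · exact Or.inl h
        · exact Or.inr (by simp [h])
      · rintro (h | h)
        · exact Or.inl h
        · rcases List.mem_cons.1 h with rfl | h
          · exact Or.inl ha
          · exact Or.inr h
    · simp only [List.mem_append, List.mem_cons]
      tauto

theorem mem_nub {q : Q} {l : List Q} : q ∈ nub l ↔ q ∈ l := by
  unfold nub
  rw [mem_foldl_push]
  simp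

theorem nodup_foldl_push (l acc : List Q) (ha : acc.Nodup) : (l.foldl push acc).Nodup := by
  induction l generalizing acc with
  | nil => exact ha
  | cons a l ih =>
    rw [List.foldl_cons]
    apply ih
    unfold push
    split_ifs with h
    · exact ha
    · rw [List.nodup_append]
      refine ⟨ha, by simp, ?_⟩
      rintro x hx y hy rfl
      rw [List.mem_singleton.1 hy] at hx
      exact h hx

theorem nodup_nub (l : List Q) : (nub l).Nodup := nodup_foldl_push l [] List.nodup_nil

theorem nub_toFinset (l : List Q) : (nub l).toFinset = l.toFinset := by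
  ext q
  simp [mem_nub]

theorem Ok.nub {h h' : Q → A} {l l' : List Q} (H : Ok h h' l l') : Ok h h' (nub l) (nub l') := by
  rcases H with e | ⟨p, h1, h2, q, hq, hne⟩
  · exact Or.inl (by rw [e])
  · exact Or.inr ⟨H207.nub p, nub_prefix h1, nub_prefix h2, q, mem_nub.2 hq, hne⟩

/-! ### The next query -/

omit [DecidableEq Q] in
/-- The first unknown query of the speculative list is a query of the true list. `D` = the known
queries, `h` = the true answers, `h'` = the known answers with default values. -/
theorem Ok.next {h h' : Q → A} {l l' : List Q} (H : Ok h h' l l') {D : Q → Prop} [DecidablePred D]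
    (hD : ∀ q, D q → h q = h' q) :
    (l'.find? (fun q => decide (¬ D q)) = none ∧ l = l' ∧ ∀ q ∈ l, h q = h' q) ∨
      ∃ q, l'.find? (fun q => decide (¬ D q)) = some q ∧ q ∈ l ∧ ¬ D q := by
  rcases hf : l'.find? (fun q => decide (¬ D q)) with _ | q
  · left
    rw [List.find?_eq_none] at hf
    have hk : ∀ q ∈ l', D q := fun q hq => by
      have := hf q hq
      simpa using this
    have e : l' = l := H.symm.eq_of_agree fun q hq => (hD q (hk q hq)).symm
    subst e
    exact ⟨rfl, rfl, fun q hq => hD q (hk q hq)⟩
  · right
    have hq1 : ¬ D q := by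
      have := List.find?_some hf
      simpa using this
    refine ⟨q, rfl, ?_, hq1⟩
    rcases H with e | ⟨p, h1, ⟨t, ht⟩, q', hq', hne⟩
    · rw [e]; exact List.mem_of_find?_eq_some hf
    · have hq'D : ¬ D q' := fun hd => hne (hD q' hd)
      have hfp : q ∈ p := by
        rw [← ht, List.find?_append] at hf
        rcases hp : p.find? (fun q => decide (¬ D q)) with _ | q0
        · exfalso
          rw [List.find?_eq_none] at hp
          have := hp q' hq'
          simp only [decide_eq_true_eq, not_not] at this
          exact hq'D this
        · rw [hp] at hf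
          simp only [Option.some_or, Option.some.injEq] at hf
          subst hf
          exact List.mem_of_find?_eq_some hp
      exact h1.subset hfp

/-! ### The loop -/

/-- The known answers, completed by default values. -/
def lookD (d : Q → A) (T : List (Q × A)) (q : Q) : A :=
  ((T.find? fun p => decide (p.1 = q)).map Prod.snd).getD (d q)

/-- The next query. -/
def nextQ (L : (Q → A) → List Q) (d : Q → A) (T : List (Q × A)) : Option Q :=
  (L (lookD d T)).find? fun q => decide (¬ q ∈ T.map Prod.fst)

/-- One round of the loop. -/
def rnd (L : (Q → A) → List Q) (d h : Q → A) (T : List (Q × A)) : List (Q × A) :=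
  match nextQ L d T with
  | some q => (q, h q) :: T
  | none => T

/-- Correct tables. -/
structure GoodT (L : (Q → A) → List Q) (h : Q → A) (T : List (Q × A)) : Prop where
  ok : ∀ p ∈ T, p.2 = h p.1
  nd : (T.map Prod.fst).Nodup
  sub : ∀ p ∈ T, p.1 ∈ L h

theorem lookD_of_mem {d h : Q → A} {T : List (Q × A)} (hT : ∀ p ∈ T, p.2 = h p.1) {q : Q}
    (hq : q ∈ T.map Prod.fst) : lookD d T q = h q := by
  unfold lookD
  rcases hf : T.find? (fun p => decide (p.1 = q)) with _ | p
  · exfalso
    obtain ⟨p, hp, rfl⟩ := List.mem_map.1 hq
    rw [List.find?_eq_none] at hf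
    have := hf p hp
    simp at this
  · have h1 := List.mem_of_find?_eq_some hf
    have h2 := List.find?_some hf
    simp only [decide_eq_true_eq] at h2
    rw [hf, Option.map_some, Option.getD_some, hT p h1, h2]

omit [DecidableEq Q] in
theorem GoodT.nil (L : (Q → A) → List Q) (h : Q → A) : GoodT L h [] :=
  ⟨by simp, by simp, by simp⟩

/-- Causal lists. -/
def Causal (L : (Q → A) → List Q) : Prop := ∀ h h' : Q → A, Ok h h' (L h) (L h')

theorem GoodT.next {L : (Q → A) → List Q} (hL : Causal L) {d h : Q → A} {T : List (Q × A)}
    (hT : GoodT L h T) :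
    (nextQ L d T = none ∧ L (lookD d T) = L h ∧ ∀ q ∈ L h, lookD d T q = h q) ∨
      ∃ q, nextQ L d T = some q ∧ q ∈ L h ∧ q ∉ T.map Prod.fst := by
  rcases (hL h (lookD d T)).next (D := fun q => q ∈ T.map Prod.fst)
      (fun q hq => (lookD_of_mem hT.ok hq).symm) with ⟨h1, h2, h3⟩ | ⟨q, h1, h2, h3⟩
  · exact Or.inl ⟨h1, h2.symm, fun q hq => (h3 q hq).symm⟩
  · exact Or.inr ⟨q, h1, h2, h3⟩

theorem GoodT.rnd {L : (Q → A) → List Q} (hL : Causal L) {d h : Q → A} {T : List (Q × A)}
    (hT : GoodT L h T) : GoodT L h (rnd L d h T) := by
  rcases hT.next hL (d := d) with ⟨h1, -, -⟩ | ⟨q, h1, h2, h3⟩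
  · simp only [H207.rnd, h1]; exact hT
  · simp only [H207.rnd, h1]
    refine ⟨?_, ?_, ?_⟩
    · intro p hp
      rcases List.mem_cons.1 hp with rfl | hp
      · rfl
      · exact hT.ok p hp
    · simpa using ⟨by simpa using h3, hT.nd⟩
    · intro p hp
      rcases List.mem_cons.1 hp with rfl | hp
      · exact h2
      · exact hT.sub p hp

theorem GoodT.iterate {L : (Q → A) → List Q} (hL : Causal L) (d h : Q → A) (n : ℕ) :
    GoodT L h ((H207.rnd L d h)^[n] []) := by
  induction n with
  | zero => exact GoodT.nil L h
  | succ n ih => rw [Function.iterate_succ_apply']; exact ih.rnd hL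

theorem GoodT.length_le {L : (Q → A) → List Q} {h : Q → A} {T : List (Q × A)}
    (hT : GoodT L h T) : T.length ≤ (L h).toFinset.card := by
  have h1 : (T.map Prod.fst).toFinset ⊆ (L h).toFinset := by
    intro q hq
    simp only [List.mem_toFinset, List.mem_map] at hq ⊢
    obtain ⟨p, hp, rfl⟩ := hq
    exact hT.sub p hp
  have h2 := Finset.card_le_card h1
  rwa [List.toFinset_card_of_nodup hT.nd, List.length_map] at h2

/-- After `n` rounds: nothing is missing, or all `n` rounds have asked a new query. -/
theorem loop_dichotomy {L : (Q → A) → List Q} (hL : Causal L) (d h : Q → A) (n : ℕ) :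
    nextQ L d ((rnd L d h)^[n] []) = none ∨ ((rnd L d h)^[n] []).length = n := by
  induction n with
  | zero => exact Or.inr rfl
  | succ n ih =>
    rw [Function.iterate_succ_apply']
    set T := (rnd L d h)^[n] []
    rcases ih with h1 | h1
    · left
      have : rnd L d h T = T := by simp only [rnd, h1]
      rw [this]; exact h1
    · rcases (GoodT.iterate hL d h n).next hL (d := d) with ⟨h2, -, -⟩ | ⟨q, h2, -, -⟩
      · left
        have h2' : nextQ L d T = none := h2
        have : rnd L d h T = T := by simp only [rnd, h2']
        rw [this]; exact h2'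
      · right
        have h2' : nextQ L d T = some q := h2
        simp only [rnd, h2', List.length_cons, h1]

/-- The loop: after at least as many rounds as there are distinct queries in the true list, the
speculative list is the true list and all its answers are known. -/
theorem loop_done {L : (Q → A) → List Q} (hL : Causal L) (d h : Q → A) {n : ℕ}
    (hn : (L h).toFinset.card ≤ n) :
    nextQ L d ((rnd L d h)^[n] []) = none ∧ L (lookD d ((rnd L d h)^[n] [])) = L h ∧
      ∀ q ∈ L h, lookD d ((rnd L d h)^[n] []) q = h q := by
  rcases (GoodT.iterate hL d h n).next hL (d := d) with h1 | ⟨q, h1, -, -⟩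
  · exact h1
  · exfalso
    have h2 : ((rnd L d h)^[n + 1] []).length = n + 1 := by
      rcases loop_dichotomy hL d h n with h3 | h3
      · rw [h1] at h3; exact absurd h3 (by simp)
      · rw [Function.iterate_succ_apply']
        simp only [rnd, h1, List.length_cons, h3]
    have := (GoodT.iterate hL d h (n + 1)).length_le
    omega

/-- In every round before the end the asked query is a new query of the true list. -/
theorem loop_query {L : (Q → A) → List Q} (hL : Causal L) (d h : Q → A) (n : ℕ) {q : Q}
    (hq : nextQ L d ((rnd L d h)^[n] []) = some q) : q ∈ L h := by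
  rcases (GoodT.iterate hL d h n).next hL (d := d) with ⟨h1, -, -⟩ | ⟨q', h1, h2, -⟩
  · rw [h1] at hq; exact absurd hq (by simp)
  · rw [h1] at hq
    obtain rfl := Option.some.inj hq
    exact h2

end Vale.Agent.P315.H207
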