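import Vale.Agent.P315.H207.M2Num
import Vale.Agent.P315.H873.MulF
import Vale.Agent.P315.H608.Size2

/-!
P315, milestone 2, row M2-TSTRAT: the strategy of milestone 2 fits to the parameters `Cst2` and to
the feed of the main program `mulF`.
-/

set_option autoImplicit false

namespace Vale.Agent.P315.H207.M2

open Vale.Agent.P315.H608 Vale.Agent.P315.H527 Vale.Agent.P315.H873 Vale.Agent.P315.H809
open Vale.Agent.P315.H95 (wd)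

section

variable {c : Cst2} {m k : ℕ}

theorem M_eq (hbm : c.bm = 20 * m) : c.M = 2 ^ (20 * m) := by rw [c.hbm, hbm]

theorem K_eq2 (hbm : c.bm = 20 * m) (g : ℕ) : (2 ^ (20 * m)) ^ c.L g = c.K g := by
  rw [← M_eq hbm]
  rfl

/-- **The strategy fits**, for large `g`. -/
theorem exists_fit (c : Cst2) (hm : 0 < m) (hbm : c.bm = 20 * m) (k : ℕ) (hak : 2 ≤ c.ak) :
    ∃ g₁ : ℕ, ∀ g, g₁ ≤ g → ∀ (N : ℕ) (F : List ℕ), F.getD 0 0 = c.L g → F.getD 1 0 = c.S g →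
      F.getD 2 0 = c.μ2 N g → F.getD 3 0 = c.ℓ2 N g → F.getD 4 0 = c.w0 N g →
      F.getD 5 0 = c.Kc g → F.getD 6 0 = c.Kc g → F.getD 7 0 = c.B2 N g →
      F.getD 8 0 = c.c0 N g → c.NV N g ≤ F.length →
      Fit m k F (c.L g) (c.S g) (c.μ2 N g) (c.ℓ2 N g) (c.w0 N g) (c.Kc g) (c.Kc g) (c.B2 N g)
        (c.c0 N g) := by
  obtain ⟨g₁, h⟩ := Cst2.exists_le_K c (400 * m) (20 + k) hak
  refine ⟨g₁, fun g hg N F e0 e1 e2 e3 e4 e5 e6 e7 e8 hNV => ?_⟩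
  obtain ⟨h1, h2, h3, _⟩ := h g hg
  have hK := K_eq2 hbm g
  refine fit_of e0 e1 e2 e3 e4 e5 e6 e7 e8 hm (Cst2.μ2_pos N g) (Cst2.μ2_le_w0 N g) (by omega)
    ?_ ?_ ?_ ?_ ?_
  · rw [hK]
    exact (Nat.pow_le_pow_right (by norm_num) (by omega)).trans h1
  · rw [hK]
    exact (Nat.pow_le_pow_right (by norm_num) (by omega)).trans h2
  · rw [hK]
    exact (Nat.pow_le_pow_right (by norm_num) (by omega)).trans h3
  · rw [← hbm]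
    exact Cst2.two_mul_wd_le_B2 N g
  · rw [hK, ← mul_assoc]
    exact hNV

/-- The codes of the queries. -/
theorem KD_lt (hbm : c.bm = 20 * m) (N g : ℕ) :
    (2 ^ (20 * m)) ^ c.L g * c.ℓ2 N g < c.D2 g * c.μ2 N g := by
  rw [K_eq2 hbm]
  have h1 := Cst2.D2_ge (c := c) N g
  have h2 : c.K g * 2 ^ (c.w g + c.z g) < c.D2 g := by
    have h3 : 1 ≤ c.B2 N g / c.μ2 N g + 1 := Nat.le_add_left 1 _
    omega
  unfold Cst2.ℓ2
  rw [← mul_assoc]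
  exact Nat.mul_lt_mul_of_pos_right h2 (Cst2.μ2_pos N g)

theorem dvd_half (N g : ℕ) : c.μ2 N g ∣ c.ℓ2 N g / 2 := by
  rw [Cst2.ℓ2_div_two]; exact Cst2.μ2_dvd_ℓh N g

theorem even_ℓ2 (N g : ℕ) : c.ℓ2 N g = 2 * (c.ℓ2 N g / 2) := by
  rw [Cst2.ℓ2_div_two]; exact Cst2.ℓ2_eq_two_mul N g

theorem dvd_pe2 (q : ℕ) (p : ℕ × ℕ) : c.μ2 (sl p) (gp c q p) ∣ pe2 c q p := Dvd.intro_left _ rfl

theorem pe2_le (q : ℕ) (p : ℕ × ℕ) : pe2 c q p ≤ c.B2 (sl p) (gp c q p) := by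
  refine le_trans ?_ (Cst2.K_mul_ℓ2_le_B2 (sl p) (gp c q p))
  have h1 := Cst2.lt_K_mul_ℓ2 (c := c) (sl p) (gp c q p)
  have h2 := Cst2.ℓ2_eq_two_mul (c := c) (sl p) (gp c q p)
  have h3 : c.K (gp c q p) * c.ℓ2 (sl p) (gp c q p) =
      2 * (c.K (gp c q p) * c.ℓh (sl p) (gp c q p)) := by rw [h2]; ring
  have h4 : c.K (gp c q p) * (2 * c.ℓh (sl p) (gp c q p)) =
      2 * (c.K (gp c q p) * c.ℓh (sl p) (gp c q p)) := by ring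
  have h5 : sl p = p.1 + p.2 := rfl
  unfold pe2
  refine (Nat.div_mul_le_self _ _).trans ?_
  unfold Cst2.c0
  rw [h4]
  rw [h3] at h1 ⊢
  generalize c.K (gp c q p) * c.ℓh (sl p) (gp c q p) = X at *
  rw [h5] at h1
  omega

/-! ### The feed of the main program -/

variable (c) (q cb N₀ : ℕ)

/-- All hypotheses on the feed of the main program. -/
structure FitM (m k : ℕ) (F : List ℕ) (p : ℕ × ℕ) : Prop where
  fit : Fit m k F (c.L (gp c q p)) (c.S (gp c q p)) (c.μ2 (sl p) (gp c q p))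
    (c.ℓ2 (sl p) (gp c q p)) (c.w0 (sl p) (gp c q p)) (c.Kc (gp c q p)) (c.Kc (gp c q p))
    (c.B2 (sl p) (gp c q p)) (c.c0 (sl p) (gp c q p))
  hD : F.getD 10 0 = c.D2 (gp c q p)
  hpe : F.getD 9 0 = pe2 c q p
  hd : c.μ2 (sl p) (gp c q p) ∣ c.ℓ2 (sl p) (gp c q p) / 2
  hdw : c.μ2 (sl p) (gp c q p) ∣ c.w0 (sl p) (gp c q p)
  h0 : c.μ2 (sl p) (gp c q p) ∣ c.c0 (sl p) (gp c q p)
  hev : c.ℓ2 (sl p) (gp c q p) = 2 * (c.ℓ2 (sl p) (gp c q p) / 2)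
  hKD : (2 ^ (20 * m)) ^ c.L (gp c q p) * c.ℓ2 (sl p) (gp c q p) <
    c.D2 (gp c q p) * c.μ2 (sl p) (gp c q p)
  hpμ : c.μ2 (sl p) (gp c q p) ∣ pe2 c q p
  hpB : pe2 c q p ≤ c.B2 (sl p) (gp c q p)

theorem exists_fitM (hm : 0 < m) (hbm : c.bm = 20 * m) (k : ℕ) (hak : 2 ≤ c.ak) :
    ∃ g₁ : ℕ, ∀ (q cb N₀ : ℕ) (p : ℕ × ℕ), g₁ ≤ gp c q p → ∀ (VIS : (ℕ → ℕ) → List ℕ)
      (cc : ℕ → ℕ),
      (VIS (H486.MulF.sdL ((mulF c q cb N₀).N p) ((mulF c q cb N₀).NS p) cc)).length =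
        (mulF c q cb N₀).NV p → FitM c q m k ((mulF c q cb N₀).feed VIS p cc) p := by
  obtain ⟨g₁, h⟩ := exists_fit c hm hbm k hak
  refine ⟨g₁, fun q cb N₀ p hg VIS cc hV => ?_⟩
  have e : ∀ i < 12, ((mulF c q cb N₀).feed VIS p cc).getD i 0 =
      ((mulF c q cb N₀).pfx p).getD i 0 := fun i hi => H486.MulF.feed_pre cc hi
  have hlen : c.NV (sl p) (gp c q p) ≤ ((mulF c q cb N₀).feed VIS p cc).length := by
    rw [H486.MulF.length_feed hV]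
    exact Nat.le_add_left _ _
  refine ⟨h _ hg _ _ ?_ ?_ ?_ ?_ ?_ ?_ ?_ ?_ ?_ hlen, ?_, ?_, dvd_half _ _,
    Cst2.μ2_dvd_w0 _ _, Cst2.μ2_dvd_c0 _ _, even_ℓ2 _ _, KD_lt hbm _ _, dvd_pe2 q p, pe2_le q p⟩
  all_goals
    rw [e _ (by norm_num), mulF_pfx]
    rfl

end

end Vale.Agent.P315.H207.M2
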