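import Vale.Agent.P315.Q.TabRN
import Vale.Agent.P315.Q.Loop

/-! P315, row G-STRAT (S2): the result of the oracle loop in one theorem.

For the concrete tables `St : TStrat (List ℕ)` of Q/Tab.lean, linked to a faithful strategy `S`
(H207/RdL.lean), the loop of Q/Loop.lean with `next (F, T) := St.next F T` and the true answers `h`
has asked after `t` rounds only cells of `C.rd` of the root, all stored answers are right, and all
cells of `C.rd` are known as soon as `t` is at least its cardinality. -/

set_option autoImplicit false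

namespace Vale.Agent.P315.H207

open Vale.Agent.Lib.PolyTime Vale.Agent.P315.C Vale.Agent.P315.Q

/-! ### Rows and labels of the cells in the lists -/

namespace Strat

variable {A : Type}

/-- The rows of the cells lie in the slab, their labels are valid. -/
theorem RN_cells {S : Strat A} {pos : ℕ → Prop} (hS : S.Loc pos) (n : ℕ) (V : ℕ → ℕ → Prop)
    (hk : ∀ j a, 0 < j → j ≤ n → V j a → ∀ a' ∈ S.kidsL j a, V (j - 1) a')
    (hl : ∀ j s a m, 0 < j → j ≤ n → s ∈ S.scales j → V j a → m < S.P.M ^ 2 ^ s →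
      ∀ x ∈ S.labs j s a m, V (j - 2 ^ s) x)
    (b0 : ℕ)
    (hv : ∀ s q κ j a D coin m, 0 < j → j ≤ n → s ∈ S.scales j → V j a → q < S.mc.cnt s →
      κ < b0 → m < S.P.M ^ 2 ^ s → V (j - 2 ^ s) (S.mc.lane s q κ j a D coin m).1)
    (h : Cell → A) (j : ℕ) :
    j ≤ n → ∀ i a b, b + j ≤ b0 → V j a → ∀ c ∈ S.RN h j i a b,
      V 0 c.2 ∧ i * S.P.M ^ j ≤ c.1 ∧ c.1 < (i + 1) * S.P.M ^ j := by
  induction j using Nat.strong_induction_on with
  | _ j ih =>
    intro hjn i a b hb ha c hc
    rcases j with _ | j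
    · rw [RN_zero] at hc
      split_ifs at hc
      · simp at hc
      · rw [List.mem_singleton] at hc
        subst hc
        simpa using ha
    · have hslab : ∀ e, 1 ≤ e → e ≤ j + 1 → ∀ m < S.P.M ^ e, ∀ r : ℕ,
          (i * S.P.M ^ e + m) * S.P.M ^ (j + 1 - e) ≤ r →
          r < (i * S.P.M ^ e + m + 1) * S.P.M ^ (j + 1 - e) →
          i * S.P.M ^ (j + 1) ≤ r ∧ r < (i + 1) * S.P.M ^ (j + 1) := by
        intro e he1 he2 m hm r h1 h2
        have hp : S.P.M ^ (j + 1) = S.P.M ^ e * S.P.M ^ (j + 1 - e) := by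
          rw [← pow_add]; congr 1; omega
        constructor
        · calc i * S.P.M ^ (j + 1) = (i * S.P.M ^ e) * S.P.M ^ (j + 1 - e) := by rw [hp]; ring
            _ ≤ (i * S.P.M ^ e + m) * S.P.M ^ (j + 1 - e) := Nat.mul_le_mul_right _ (by omega)
            _ ≤ r := h1
        · calc r < (i * S.P.M ^ e + m + 1) * S.P.M ^ (j + 1 - e) := h2
            _ ≤ ((i + 1) * S.P.M ^ e) * S.P.M ^ (j + 1 - e) :=
                Nat.mul_le_mul_right _ (by rw [Nat.add_mul, one_mul]; omega)
            _ = (i + 1) * S.P.M ^ (j + 1) := by rw [hp]; ring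
      rw [RN_succ hS, stepN, mem_nub, List.mem_append, List.mem_append] at hc
      rcases hc with hc | hc | hc
      · unfold baseL at hc
        simp only [List.mem_flatMap, List.mem_range] at hc
        obtain ⟨m, hm, a', ha', hc⟩ := hc
        obtain ⟨h1, h2, h3⟩ := ih _ (by omega) (by omega) _ _ _ (by omega)
          (hk _ _ (by omega) hjn ha a' ha') c hc
        have := hslab 1 le_rfl (by omega) m (by simpa using hm) c.1 (by simpa using h2)
          (by simpa using h3)
        exact ⟨h1, this⟩
      · unfold seenL at hc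
        simp only [List.mem_flatMap, List.mem_range] at hc
        obtain ⟨s, hs, κ, hκ, m, hm, x, hx, hc⟩ := hc
        have hs2 := (mem_scales.1 hs).2
        have hle : 2 ^ s ≤ j + 1 := Nat.le_of_dvd (by omega) hs2
        have h1s : 1 ≤ 2 ^ s := Nat.one_le_two_pow
        obtain ⟨h1, h2, h3⟩ := ih _ (by omega) (by omega) _ _ _
          (by unfold un; omega) (hl _ _ _ _ (by omega) hjn hs ha hm x hx) c hc
        exact ⟨h1, hslab _ h1s hle m hm c.1 h2 h3⟩
      · unfold lanesL at hc
        simp only [List.mem_flatMap, List.mem_range] at hc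
        obtain ⟨s, hs, q, hq, κ, hκ, m, hm, hc⟩ := hc
        have hs2 := (mem_scales.1 hs).2
        have hle : 2 ^ s ≤ j + 1 := Nat.le_of_dvd (by omega) hs2
        have h1s : 1 ≤ 2 ^ s := Nat.one_le_two_pow
        obtain ⟨h1, h2, h3⟩ := ih _ (by omega) (by omega) _ _ _
          (by unfold un2; omega)
          (hv s q κ (j + 1) a _ _ m (by omega) hjn hs ha hq (by omega) hm) c hc
        exact ⟨h1, hslab _ h1s hle m hm c.1 h2 h3⟩

end Strat

/-! ### `next` is the next query of the causal list -/

theorem look_eq_lookD (T : KT) : Q.look T = lookD (fun _ => []) T := by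
  funext c
  unfold Q.look lookD
  have h1 : (fun e : (ℕ × ℕ) × List ℕ => decide (e.1.1 = c.1 ∧ e.1.2 = c.2)) =
      fun p => decide (p.1 = c) := by
    funext e
    rw [decide_eq_decide, Prod.ext_iff]
  rw [h1]
  cases T.find? fun p => decide (p.1 = c) <;> rfl

theorem knB_iff (T : KT) (c : ℕ × ℕ) : knB T c = true ↔ c ∈ T.map Prod.fst := by
  unfold knB
  rw [List.any_eq_true, List.mem_map]
  refine exists_congr fun e => and_congr_right fun _ => ?_
  rw [decide_eq_true_eq, Prod.ext_iff]

theorem miss_eq (D : ℕ) (T : KT) (L : List (ℕ × ℕ)) :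
    miss D T L = codeN D (L.find? fun q => decide (¬ q ∈ T.map Prod.fst)) := by
  unfold miss codeN
  have h1 : (fun c => !(knB T c)) = fun q : ℕ × ℕ => decide (¬ q ∈ T.map Prod.fst) := by
    funext c
    by_cases h : c ∈ T.map Prod.fst
    · rw [(knB_iff T c).2 h]; simp only [h]; decide
    · have : knB T c = false := by
        rcases hb : knB T c with _ | _
        · rfl
        · exact absurd ((knB_iff T c).1 hb) h
      rw [this]; simp only [h]; decide
  rw [h1]

section

variable {θ : Type} [Enc θ] {St : TStrat θ} {F : θ} {S : Strat (List ℕ)} {V : ℕ → ℕ → Prop}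
  {pos : ℕ → Prop}

/-- The list of the root. -/
def rootL (St : TStrat θ) (F : θ) (S : Strat (List ℕ)) (h : ℕ × ℕ → List ℕ) : List (ℕ × ℕ) :=
  S.RN h (St.n F) 0 (St.a0 F) (St.Nr F)

theorem causal_rootL (hL : Link St F S V pos) : Causal (rootL St F S) :=
  Strat.causal_RN hL.loc _ _ _ _

/-- (1) -/
theorem next_eq (hL : Link St F S V pos) (hV : V (St.n F) (St.a0 F))
    (hB : ∀ T, ∀ j ≤ St.n F, esize (St.tabsU F T j) ≤ St.BB F) (T : KT) :
    St.next F T = codeN (St.Dc F) (nextQ (rootL St F S) (fun _ => []) T) := by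
  unfold TStrat.next nextQ rootL
  rw [TStrat.root_eq hL T (hB T) hV, miss_eq, look_eq_lookD]
  refine congrArg (fun f : ℕ × ℕ → Bool => codeN (St.Dc F)
    (List.find? f (S.RN (lookD (fun _ => []) T) (St.n F) 0 (St.a0 F) (St.Nr F)))) ?_
  funext q
  rw [decide_eq_decide]

theorem rootL_cells (hL : Link St F S V pos) (hV : V (St.n F) (St.a0 F))
    (h : ℕ × ℕ → List ℕ) :
    ∀ c ∈ rootL St F S h, c.2 < St.Lab F ∧ c.1 < St.M F ^ St.n F := by
  intro c hc
  have hM := hL.hM
  have key := Strat.RN_cells hL.loc (St.n F) V hL.vkids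
    (fun j s a m h1 h2 h3 h4 h5 x hx => by
      obtain ⟨h6, h7⟩ := Strat.mem_scales.1 h3
      exact hL.vlabs j s a m h1 h2 (by rw [← hL.hS]; exact h6) h7 h4 (by rw [← hM]; exact h5) x hx)
    (St.U F)
    (fun s q κ j a D coin m h1 h2 h3 h4 h5 h6 h7 => by
      obtain ⟨h8, h9⟩ := Strat.mem_scales.1 h3
      exact hL.vlane s q κ j a D coin m (by rw [← hL.hS]; exact h8) h1 h2 h9 h4 h5 h6
        (by rw [← hM]; exact h7))
    h (St.n F) le_rfl 0 (St.a0 F) (St.Nr F) (by have := hL.uN; omega) hV c hc
  refine ⟨hL.vLab 0 _ (Nat.zero_le _) key.1, ?_⟩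
  have := key.2.2
  rw [hM] at this
  simpa using this

end

/-! ### The loop -/

/-- The strategy `next` of Q/Loop.lean given by the tables. -/
def nextOf (St : TStrat (List ℕ)) (x : List ℕ × Kn) : ℕ := St.next x.1 x.2

theorem pt_nextOf (St : TStrat (List ℕ)) : PT ∅ (nextOf St) :=
  St.PT_next PT.fst' PT.snd'

section

variable {St : TStrat (List ℕ)} {F : List ℕ} {S : Strat (List ℕ)} {V : ℕ → ℕ → Prop}
  {pos : ℕ → Prop} {vis hid : Leaf} {h : ℕ × ℕ → List ℕ} {ans : ℕ → List ℕ}

/-- The read set of the root. -/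
noncomputable def rootR (St : TStrat (List ℕ)) (F : List ℕ) (S : Strat (List ℕ))
    (vis hid : Leaf) : Finset (ℕ × ℕ) :=
  rd S.P S.mc S.ω vis hid (St.n F) 0 (St.a0 F) ((St.Nr F : ℤ) - S.P.H - 1)

theorem rootL_toFinset (hF : S.Faithful pos V vis hid h) (hV : V (St.n F) (St.a0 F)) :
    (rootL St F S h).toFinset = rootR St F S vis hid :=
  Strat.RN_toFinset hF (St.n F) 0 (St.a0 F) (St.Nr F) hV

/-- The known cells after `t` rounds. -/
def knownT (St : TStrat (List ℕ)) (F : List ℕ) (ans : ℕ → List ℕ) (t : ℕ) : KT :=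
  tr (nextOf St) (St.Dc F) F ans t

/-- The loop result: keys, answers, validity of the asked codes. -/
structure LoopRes (St : TStrat (List ℕ)) (F : List ℕ) (R : Finset (ℕ × ℕ))
    (h : ℕ × ℕ → List ℕ) (ans : ℕ → List ℕ) : Prop where
  /-- only cells of the read set are asked -/
  sub : ∀ t, (knownT St F ans t).keys ⊆ R
  /-- all cells are known after at least `R.card` rounds -/
  full : ∀ t, R.card ≤ t → (knownT St F ans t).keys = R
  /-- the number of known cells -/
  card : ∀ t, (knownT St F ans t).keys.card = min t R.card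
  nodup : ∀ t, ((knownT St F ans t).map Prod.fst).Nodup
  /-- the stored answers are right -/
  ans_eq : ∀ t, ∀ c ∈ knownT St F ans t, c.2 = h c.1
  /-- a finished run -/
  fin : ∀ t, nextOf St (F, knownT St F ans t) = 0 ↔ R.card ≤ t
  /-- the asked codes -/
  code : ∀ t, nextOf St (F, knownT St F ans t) = 0 ∨ ∃ c ∈ R,
    nextOf St (F, knownT St F ans t) = c.1 * St.Dc F + c.2 + 1
  /-- the asked codes are small -/
  lt : ∀ t, nextOf St (F, knownT St F ans t) ≤ St.M F ^ St.n F * St.Dc F
  row : ∀ c ∈ R, c.1 < St.M F ^ St.n F ∧ c.2 < St.Lab F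

theorem loopRes (hL : Link St F S V pos) (hF : S.Faithful pos V vis hid h)
    (hV : V (St.n F) (St.a0 F))
    (hB : ∀ T, ∀ j ≤ St.n F, esize (St.tabsU F T j) ≤ St.BB F)
    (hD : St.Lab F ≤ St.Dc F)
    (hans : ∀ i < St.M F ^ St.n F, ∀ a < St.Lab F, ans (i * St.Dc F + a) = h (i, a)) :
    LoopRes St F (rootR St F S vis hid) h ans := by
  have hC := causal_rootL (θ := List ℕ) hL
  have hcells := rootL_cells hL hV h
  have hR := rootL_toFinset (St := St) (F := F) hF hV
  have hmem : ∀ c, c ∈ rootL St F S h ↔ c ∈ rootR St F S vis hid := fun c => by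
    rw [← hR, List.mem_toFinset]
  have hnx : ∀ T : Kn, GoodT (rootL St F S) h T →
      nextOf St (F, T) = codeN (St.Dc F) (nextQ (rootL St F S) (fun _ => []) T) :=
    fun T _ => next_eq hL hV hB T
  have hansL : ∀ c ∈ rootL St F S h, ans (c.1 * St.Dc F + c.2) = h c := fun c hc =>
    hans c.1 (hcells c hc).2 c.2 (hcells c hc).1
  have hDL : ∀ c ∈ rootL St F S h, c.2 < St.Dc F := fun c hc => (hcells c hc).1.trans_le hD
  have htr : ∀ t, knownT St F ans t = (rnd (rootL St F S) (fun _ => []) h)^[t] [] := fun t =>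
    tr_eq_rnd hC hnx hansL hDL t
  have hgood : ∀ t, GoodT (rootL St F S) h (knownT St F ans t) := fun t => by
    rw [htr]; exact GoodT.iterate hC _ h t
  have hcardR : (rootL St F S h).toFinset.card = (rootR St F S vis hid).card := by rw [hR]
  have hkeys : ∀ t, (knownT St F ans t).keys = ((knownT St F ans t).map Prod.fst).toFinset :=
    fun _ => rfl
  have hsub : ∀ t, (knownT St F ans t).keys ⊆ rootR St F S vis hid := by
    intro t c hc
    rw [hkeys, List.mem_toFinset, List.mem_map] at hc
    obtain ⟨p, hp, rfl⟩ := hc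
    exact (hmem _).1 ((hgood t).sub p hp)
  have hlen : ∀ t, (knownT St F ans t).keys.card = (knownT St F ans t).length := by
    intro t
    rw [hkeys, List.toFinset_card_of_nodup (hgood t).nd, List.length_map]
  have hzero : ∀ t, nextOf St (F, knownT St F ans t) = 0 ↔
      nextQ (rootL St F S) (fun _ => []) (knownT St F ans t) = none := by
    intro t
    rw [hnx _ (hgood t)]
    cases nextQ (rootL St F S) (fun _ => []) (knownT St F ans t) with
    | none => simp [codeN]
    | some q => simp [codeN]
  have hdone : ∀ t, (rootR St F S vis hid).card ≤ t →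
      nextQ (rootL St F S) (fun _ => []) (knownT St F ans t) = none ∧
        (knownT St F ans t).keys = rootR St F S vis hid := by
    intro t ht
    have h1 := loop_done hC (fun _ => []) h (n := t) (by rw [hcardR]; exact ht)
    rw [← htr] at h1
    refine ⟨h1.1, Finset.Subset.antisymm (hsub t) fun c hc => ?_⟩
    have hcL := (hmem c).2 hc
    rw [← h1.2.1] at hcL
    have h2 := List.find?_eq_none.1 h1.1 c hcL
    rw [hkeys, List.mem_toFinset]
    simpa using h2
  have hcode : ∀ t, nextOf St (F, knownT St F ans t) = 0 ∨ ∃ c ∈ rootR St F S vis hid,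
      nextOf St (F, knownT St F ans t) = c.1 * St.Dc F + c.2 + 1 := by
    intro t
    rcases next_valid hC hnx hansL hDL t with h1 | ⟨c, hc, h1⟩
    · exact Or.inl h1
    · exact Or.inr ⟨c, (hmem c).1 hc, h1⟩
  have hdich : ∀ t, nextQ (rootL St F S) (fun _ => []) (knownT St F ans t) = none ∨
      (knownT St F ans t).length = t := by
    intro t
    rw [htr]
    exact loop_dichotomy hC (fun _ => []) h t
  have hle : ∀ t, (knownT St F ans t).length ≤ t := fun t => tr_length_le _ _ _ _ _
  have hnone : ∀ t, nextQ (rootL St F S) (fun _ => []) (knownT St F ans t) = none →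
      (knownT St F ans t).keys = rootR St F S vis hid := by
    intro t ht
    refine Finset.Subset.antisymm (hsub t) fun c hc => ?_
    rcases (hgood t).next hC (d := fun _ => []) with ⟨h1, h2, _⟩ | ⟨q, h1, _, _⟩
    · have hcL := (hmem c).2 hc
      rw [← h2] at hcL
      have h3 := List.find?_eq_none.1 h1 c hcL
      rw [hkeys, List.mem_toFinset]
      simpa using h3
    · rw [ht] at h1; exact absurd h1 (by simp)
  refine ⟨hsub, fun t ht => (hdone t ht).2, fun t => ?_, fun t => (hgood t).nd,
    fun t => (hgood t).ok, fun t => ?_, hcode, fun t => ?_, fun c hc => ?_⟩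
  · rcases Nat.lt_or_ge t (rootR St F S vis hid).card with ht | ht
    · rw [min_eq_left ht.le, hlen]
      rcases hdich t with h1 | h1
      · exfalso
        have h2 := hlen t
        rw [hnone t h1] at h2
        have := hle t
        omega
      · exact h1
    · rw [min_eq_right ht, (hdone t ht).2]
  · rw [hzero]
    constructor
    · intro h1
      have h2 := hlen t
      rw [hnone t h1] at h2
      have := hle t
      omega
    · intro h1
      exact (hdone t h1).1
  · rcases hcode t with h1 | ⟨c, hc, h1⟩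
    · rw [h1]; exact Nat.zero_le _
    · have h2 := hcells c ((hmem c).2 hc)
      rw [h1]
      calc c.1 * St.Dc F + c.2 + 1 ≤ c.1 * St.Dc F + St.Dc F := by have := h2.1; omega
        _ = (c.1 + 1) * St.Dc F := by ring
        _ ≤ St.M F ^ St.n F * St.Dc F := Nat.mul_le_mul_right _ h2.2
  · have := hcells c ((hmem c).2 hc)
    exact ⟨this.2, this.1⟩

end

end Vale.Agent.P315.H207
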