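import Vale.Agent.P315.H207.M2Link
import Vale.Agent.P315.H207.Fin
import Vale.Agent.P315.H295.TabSize
import Vale.Agent.P315.Q.LoopM
import Vale.Agent.P315.H817.StCell

/-!
P315, milestone 2, row M2-TSTRAT: the loop of the strategy (`m2_loop`), the classes of the read
cells (`rd_cl`), the output (`out_eq`).
-/

set_option autoImplicit false
set_option linter.unusedSectionVars false

namespace Vale.Agent.P315.H207.M2

open Vale.Agent.Lib.PolyTime Vale.Agent.P315.H155 Vale.Agent.P315.Q Vale.Agent.P315.H763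
open Vale.Agent.P315.C Vale.Agent.P315.H804
open Vale.Agent.P315.H95 (cl bx ac clsPar wd)

/-! ### The parts of the oracle loop -/

/-- Number of the queries of the cell with the code `p.2 - 1`. -/
def ns2 (m : ℕ) (p : List ℕ × ℕ) : ℕ := nsM (fU p.1) (fμ p.1) (fw p.1) (fLab m p.1) p.2

/-- Length of an answer. -/
def w2 (F : List ℕ) : ℕ := fℓ F / fμ F + 1

/-- Code of the query number `p.2.2` of the cell with the code `p.2.1 - 1`. -/
def sub2 (m : ℕ) (p : List ℕ × ℕ × ℕ) : ℕ :=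
  subM (fU p.1) (fℓ p.1) (fμ p.1) (fw p.1) (fc p.1) (fD p.1) (fLab m p.1) p.2.1 p.2.2

/-- Output. -/
def out2 (m : ℕ) (p : List ℕ × Kn) : ℕ :=
  (fcv p.1 p.2 (fK m p.1) 0 (fc p.1 / fμ p.1)).getD (fe p.1 / fμ p.1) 0 + (2 * fμ p.1 + 1)

theorem PT_ns2 (m : ℕ) : PT ∅ (ns2 m) := by
  unfold ns2
  exact PT_nsM (PT_fU PT.fst') (PBd_fU PT.fst') (PT_fμ PT.fst') (PT_fw PT.fst')
    (PT_fLab m PT.fst') PT.snd'

theorem PT_w2 : PT ∅ w2 := by unfold w2; fun_prop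

theorem PT_sub2 (m : ℕ) : PT ∅ (sub2 m) := by
  unfold sub2
  exact PT_subM (PT_fU PT.fst') (PBd_fU PT.fst') (PT_fℓ PT.fst') (PT_fμ PT.fst')
    (PT_fw PT.fst') (PT_fc PT.fst') (PT_fD PT.fst') (PT_fLab m PT.fst') PT.snd'.fst PT.snd'.snd

theorem PT_out2 (m : ℕ) : PT ∅ (out2 m) := by
  unfold out2
  have h1 : PT ∅ (fun p : List ℕ × Kn => fcv p.1 p.2 (fK m p.1) 0 (fc p.1 / fμ p.1)) :=
    PT_fcv PT.fst' PT.snd' (PT_fK m PT.fst') (PT.const 0)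
      ((PT_fc PT.fst').div (PT_fμ PT.fst'))
  fun_prop

section
variable {m k cd D1 : ℕ} {F : List ℕ} {n S μ ℓ w0 Kc kr B c0 : ℕ}
  (hF : Fit m k F n S μ ℓ w0 Kc kr B c0)
include hF

theorem n_le_famH : n ≤ famH m n S := (Nat.le_add_right n (2 ^ S)).trans (Nat.le_add_right _ _)

theorem Nr_eq : (((st m k cd D1).Nr F : ℕ) : ℤ) - (famH m n S : ℕ) - 1 = famN k cd n := by
  show ((fN m k cd F : ℕ) : ℤ) - (famH m n S : ℕ) - 1 = famN k cd n
  unfold fN famN famCut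
  rw [fH_eq hF, fn_eq hF]
  have h1 : (n + cd - 1) / cd ≤ famH m n S + 1 := by
    have h2 := n_le_famH hF
    rcases Nat.eq_zero_or_pos cd with h0 | h0
    · subst h0; simp
    · rcases Nat.eq_zero_or_pos n with h3 | h3
      · subst h3
        rw [Nat.div_eq_of_lt (by omega)]
        exact Nat.zero_le _
      · have h4 : (n + cd - 1) / cd ≤ n := by
          rw [Nat.div_le_iff_le_mul_add_pred h0]
          have h5 : n ≤ cd * n := Nat.le_mul_of_pos_left _ h0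
          omega
        omega
  generalize (n + cd - 1) / cd = a at *
  generalize (2 ^ k - 1) * n / 2 = b at *
  omega

/-- The read set of the root. -/
theorem rootR_eq (vis hid : Leaf) :
    rootR (st m k cd D1) F (SF m k D1 n S μ ℓ w0 Kc B c0 F) vis hid =
      rd (fam2 m k cd D1 n S ℓ μ B w0 Kc kr).P (fam2 m k cd D1 n S ℓ μ B w0 Kc kr).mc
        (rndF m k n S ℓ F) vis hid n 0 (H95.enc kr 0 0)
        (fam2 m k cd D1 n S ℓ μ B w0 Kc kr).N := by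
  unfold rootR
  have h1 : (st m k cd D1).n F = n := fn_eq hF
  have h2 : (st m k cd D1).a0 F = H95.enc kr 0 0 := by
    show H95.enc (fkr F) 0 0 = _
    rw [fkr_eq hF]
  have h3 : ((st m k cd D1).Nr F : ℤ) - (SF m k D1 n S μ ℓ w0 Kc B c0 F).P.H - 1 =
    famN k cd n := Nr_eq hF
  rw [h1, h2, h3]
  rfl

theorem Dc_eq : (st m k cd D1).Dc F = labB (20 * m) (Kc + 3) kr n := fLab_eq hF
theorem Lab_eq : (st m k cd D1).Lab F = labB (20 * m) (Kc + 3) kr n := fLab_eq hF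

theorem V_a0 : V (20 * m) w0 (Kc + 3) kr n ((st m k cd D1).n F) ((st m k cd D1).a0 F) := by
  have h1 : (st m k cd D1).n F = n := fn_eq hF
  have h2 : (st m k cd D1).a0 F = H95.enc kr 0 0 := by
    show H95.enc (fkr F) 0 0 = _
    rw [fkr_eq hF]
  rw [h1, h2]
  exact V_root hF.krKc

theorem size_tabs (T : KT) : ∀ j ≤ (st m k cd D1).n F,
    esize ((st m k cd D1).tabsU F T j) ≤ (st m k cd D1).BB F := by
  intro j hj
  have h1 : (st m k cd D1).n F = n := fn_eq hF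
  refine H295.esize_tabsU_le' (st m k cd D1) F T ?_
  rw [h1] at hj
  exact hj.trans (n_le hF)

/-- The labels of the read cells are valid. -/
theorem rd_V {X Y : ℕ → ℕ} (hd : μ ∣ ℓ / 2) (hdw : μ ∣ w0) (h0 : μ ∣ c0)
    (hev : ℓ = 2 * (ℓ / 2)) :
    ∀ c ∈ rd (fam2 m k cd D1 n S ℓ μ B w0 Kc kr).P (fam2 m k cd D1 n S ℓ μ B w0 Kc kr).mc
        (rndF m k n S ℓ F) (fvis F) (H54.hidM X Y (ℓ / 2) c0) n 0 (H95.enc kr 0 0)
        (fam2 m k cd D1 n S ℓ μ B w0 Kc kr).N,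
      VLab (20 * m) w0 (Kc + 3) kr n 0 c.2 ∧ c.1 < (2 ^ (20 * m)) ^ n := by
  intro c hc
  rw [← rootR_eq hF, ← rootL_toFinset (St := st m k cd D1) (F := F)
    (SF_faithful (kr := kr) X Y hF.μ0 hF.w00 hd hdw h0 hev) (V_a0 hF), List.mem_toFinset] at hc
  have hL := link (cd := cd) (D1 := D1) hF
  have h1 : (st m k cd D1).n F = n := fn_eq hF
  have key := Strat.RN_cells hL.loc ((st m k cd D1).n F) (V (20 * m) w0 (Kc + 3) kr n) hL.vkids
    (fun j s a r h1 h2 h3 h4 h5 x hx => by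
      obtain ⟨h6, h7⟩ := Strat.mem_scales.1 h3
      exact hL.vlabs j s a r h1 h2 (by rw [← hL.hS]; exact h6) h7 h4 h5 x hx)
    ((st m k cd D1).U F)
    (fun s q κ j a D coin r h1 h2 h3 h4 h5 h6 h7 => by
      obtain ⟨h8, h9⟩ := Strat.mem_scales.1 h3
      exact hL.vlane s q κ j a D coin r (by rw [← hL.hS]; exact h8) h1 h2 h9 h4 h5 h6 h7)
    (fun c => cellR X Y ℓ μ w0 c0 c.1 c.2) ((st m k cd D1).n F) le_rfl 0 ((st m k cd D1).a0 F)
    ((st m k cd D1).Nr F) (by have := hL.uN; omega) (V_a0 hF) c hc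
  refine ⟨key.1.2, ?_⟩
  have h2 := key.2.2
  rw [h1] at h2
  have h3 : c.1 < (0 + 1) * (2 ^ (20 * m)) ^ n := h2
  simpa using h3

theorem rd_cl {X Y : ℕ → ℕ} (hd : μ ∣ ℓ / 2) (hdw : μ ∣ w0) (h0 : μ ∣ c0)
    (hev : ℓ = 2 * (ℓ / 2)) :
    ∀ c ∈ rd (fam2 m k cd D1 n S ℓ μ B w0 Kc kr).P (fam2 m k cd D1 n S ℓ μ B w0 Kc kr).mc
        (rndF m k n S ℓ F) (fvis F) (H54.hidM X Y (ℓ / 2) c0) n 0 (H95.enc kr 0 0)
        (fam2 m k cd D1 n S ℓ μ B w0 Kc kr).N,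
      cl c.2 ≤ Kc + 3 := fun c hc => (rd_V hF hd hdw h0 hev c hc).1.1

/-- **The loop.** -/
theorem m2_loop {X Y : ℕ → ℕ} {D : ℕ} (hD : F.getD 10 0 = D) (hd : μ ∣ ℓ / 2) (hdw : μ ∣ w0)
    (h0 : μ ∣ c0) (hev : ℓ = 2 * (ℓ / 2)) (hKD : (2 ^ (20 * m)) ^ n * ℓ < D * μ) :
    LoopRes (st m k cd D1) F
      (rd (fam2 m k cd D1 n S ℓ μ B w0 Kc kr).P (fam2 m k cd D1 n S ℓ μ B w0 Kc kr).mc
        (rndF m k n S ℓ F) (fvis F) (H54.hidM X Y (ℓ / 2) c0) n 0 (H95.enc kr 0 0)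
        (fam2 m k cd D1 n S ℓ μ B w0 Kc kr).N)
      (fun c => cellR X Y ℓ μ w0 c0 c.1 c.2)
      (ansV (ns2 m) (sub2 m) (H817.stAns X Y ℓ μ (ℓ / μ) D) F) := by
  rw [← rootR_eq hF]
  have h1 : (st m k cd D1).n F = n := fn_eq hF
  refine loopRes (link hF) (SF_faithful X Y hF.μ0 hF.w00 hd hdw h0 hev) (V_a0 hF)
    (fun T => size_tabs hF T) le_rfl ?_
  intro i hi a ha
  have hi' : i < (2 ^ (20 * m)) ^ n := by
    have h2 : i < (2 ^ (20 * m)) ^ (st m k cd D1).n F := hi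
    rwa [h1] at h2
  have ha' : a < fLab m F := ha
  refine ansM_eq (U := fU F) (K := (2 ^ (20 * m)) ^ n) X Y hF.μ0 hd hdw h0 hev ha' ?_ hi' hKD
    (ns2 m) (sub2 m) F ?_ ?_
  · have h3 : cl a ≤ a := Nat.unpair_left_le _
    have h4 : fLab m F ≤ fU F := by rw [fLab_eq hF]; exact hF.lab
    omega
  · show nsM (fU F) (fμ F) (fw F) (fLab m F) _ = _
    rw [fμ_eq hF, fw_eq hF]
  · intro r
    show subM (fU F) (fℓ F) (fμ F) (fw F) (fc F) (fD F) (fLab m F) _ r = _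
    rw [fℓ_eq hF, fμ_eq hF, fw_eq hF, fc_eq hF, show fD F = D from hD]

/-- **The output** at any table of correct answers. -/
theorem out_eq {X Y : ℕ → ℕ} {pe : ℕ} (hpe : F.getD 9 0 = pe) (hd : μ ∣ ℓ / 2) (hdw : μ ∣ w0)
    (h0 : μ ∣ c0) (hev : ℓ = 2 * (ℓ / 2)) (hpμ : μ ∣ pe) (hpB : pe ≤ B) {T : Kn}
    (hT : ∀ c ∈ T, c.2 = cellR X Y ℓ μ w0 c0 c.1.1 c.1.2) :
    out2 m (F, T) = cval (fam2 m k cd D1 n S ℓ μ B w0 Kc kr).P (fvis F)
      (H54.hidM X Y (ℓ / 2) c0) (KT.keys T) n 0 c0 pe + (2 * μ + 1) := by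
  unfold out2
  congr 1
  · show (fcv F T (fK m F) 0 (fc F / fμ F)).getD (fe F / fμ F) 0 = _
    have hpe' : fe F = pe := hpe
    unfold fcv
    rw [fK_eq hF, fB_eq hF, fμ_eq hF, fℓ_eq hF, fw_eq hF, fc_eq hF, hpe',
      min_eq_left hF.mesh, min_eq_left hF.K]
    have hTl : T = (T.map Prod.fst).map fun c => (c, cellR X Y ℓ μ w0 c0 c.1 c.2) := by
      rw [List.map_map]
      symm
      refine (List.map_congr_left (g := id) fun c hc => ?_).trans (List.map_id T)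
      show (c.1, cellR X Y ℓ μ w0 c0 c.1.1 c.1.2) = c
      rw [← hT c hc]
    conv_lhs => rw [hTl]
    rw [cvM_eq (m := 20 * m) (J := 2 ^ k - 1) (S := S + 1) (H := famH m n S) (Kc := Kc + 3)
      (D1 := D1) X Y hF.μ0 hF.w00 hd hdw h0 hev (fvis F) (fun _ _ _ _ _ _ _ _ => rfl) _ n 0 h0 hpμ
      hpB]
    rfl
  · show 2 * fμ F + 1 = _
    rw [fμ_eq hF]

end

end Vale.Agent.P315.H207.M2
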