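import Vale.Agent.P315.Q.Tab
import Vale.Agent.P315.Q.CellM
import Vale.Agent.P315.Q.LanePT
import Vale.Agent.P315.H155.Fam2
import Vale.Agent.P315.H220.MachWPT
import Vale.Agent.P315.C.Fam

/-!
P315, milestone 2, row M2-TSTRAT: the data of the strategy of `H155.fam2` as polynomial time
functions of the feed.

The feed is `F = [n, S, μ, ℓ, w0, Kc, κr, B, c0, pe, D, N] ++ seeds ++ VIS`: the seeds are `N`
words, `VIS` is the table of the visible costs, in the order row, start, end.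
-/

set_option autoImplicit false

namespace Vale.Agent.P315.H207.M2

open Vale.Agent.Lib.PolyTime Vale.Agent.P315.H155 Vale.Agent.P315.Q Vale.Agent.P315.H763
open Vale.Agent.P315.H220 (cntQ)
open Vale.Agent.P315.H95 (cl bx ac)

/-! ### The numbers in the feed -/

/-- Number of levels. -/
def fn (F : List ℕ) : ℕ := min (F.getD 0 0) F.length
/-- The largest scale. -/
def fS (F : List ℕ) : ℕ := min (F.getD 1 0) F.length
/-- Mesh. -/
def fμ (F : List ℕ) : ℕ := F.getD 2 0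
/-- Length of a row. -/
def fℓ (F : List ℕ) : ℕ := F.getD 3 0
/-- Half width of the boxes of class `0` of a row. -/
def fw (F : List ℕ) : ℕ := F.getD 4 0
/-- Largest class of a row. -/
def fKc (F : List ℕ) : ℕ := min (F.getD 5 0) F.length
/-- Class of the root. -/
def fkr (F : List ℕ) : ℕ := min (F.getD 6 0) F.length
/-- Largest position. -/
def fB (F : List ℕ) : ℕ := F.getD 7 0
/-- Start position. -/
def fc (F : List ℕ) : ℕ := F.getD 8 0
/-- End position. -/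
def fe (F : List ℕ) : ℕ := F.getD 9 0
/-- Base of the codes of the queries. -/
def fD (F : List ℕ) : ℕ := F.getD 10 0
/-- Number of the seeds. -/
def fNs (F : List ℕ) : ℕ := F.getD 11 0
/-- Seed number `r`. -/
def sd (F : List ℕ) (r : ℕ) : ℕ := F.getD (12 + r) 0
/-- Entry number `r` of the table of the visible costs. -/
def vs (F : List ℕ) (r : ℕ) : ℕ := F.getD (12 + fNs F + r) 0

/-- Clock. -/
def fU (F : List ℕ) : ℕ := (F.length + 2) ^ 6
/-- Budget for the lists of labels. -/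
def fBL (F : List ℕ) : ℕ := fU F * (2 * fU F + 1)

/-- `2 ^ (c * 2 ^ s)`, clamped. -/
def px (U c s : ℕ) : ℕ := pw U 2 (c * pw U 2 s)

theorem px_eq {U c s : ℕ} (h1 : s ≤ U) (h2 : c * 2 ^ s ≤ U) : px U c s = 2 ^ (c * 2 ^ s) := by
  unfold px
  rw [show pw U 2 s = 2 ^ s by unfold pw; rw [min_eq_left h1]]
  unfold pw
  rw [min_eq_left h2]

/-! ### The fields -/

section
variable (m k cd D1 : ℕ)

/-- Number of rows. -/
def fK (F : List ℕ) : ℕ := pw (fU F) (2 ^ (20 * m)) (fn F)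

/-- Start index. -/
def fH (F : List ℕ) : ℕ := fn F + pw (fU F) 2 (fS F) + pw (fU F) 16 (fS F) * m ^ 2

/-- Natural index of the root. -/
def fN (F : List ℕ) : ℕ := (2 ^ k - 1) * fn F / 2 + fH m F + 1 - (fn F + cd - 1) / cd

/-- Range of the seeds. -/
def fq (F : List ℕ) : ℕ :=
  pw (fU F) 2 (k + 270 * m * pw (fU F) 2 (fS F)) * (2 ^ (Nat.size (fℓ F) - 1) * 2)

/-- Number of the coins per level and scale. -/
def fCn (F : List ℕ) : ℕ := px (fU F) (4 * m) (fS F)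

/-- Jitters. -/
def fxi (F : List ℕ) (j r : ℕ) : ℕ :=
  if j < fn F + 1 ∧ r < 2 ^ (20 * m) then
    sd F (j * 2 ^ (20 * m) + r) % fq m k F % (2 ^ k - 1 + 1) else 0

/-- Coins. -/
def fcoin (F : List ℕ) (j s c : ℕ) : ℕ :=
  if j < fn F + 1 ∧ s < fS F + 1 ∧ c < fCn m F then
    sd F ((fn F + 1) * 2 ^ (20 * m) + ((j * (fS F + 1) + s) * fCn m F + c)) % fq m k F else 0

/-- Labels of the children. -/
def fkids (F : List ℕ) (a : ℕ) : List ℕ := kidsC (fU F) (20 * m) (fKc F + 3) a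

/-- Labels of the units. -/
def flabs (F : List ℕ) (s a : ℕ) : List ℕ := labC (fU F) (fBL F) (20 * m) (fKc F + 3) s a

/-- Number of machines. -/
def fcnt (F : List ℕ) (s : ℕ) : ℕ :=
  if s = 0 then 0 else cntQ (2 * px (fU F) (2 * m) s) (m * pw (fU F) 2 s + 6)
    (pw (fU F) 16 s * m ^ 2) (pw (fU F) 2 (m * pw (fU F) 2 s + 8)) (px (fU F) (4 * m) s)

/-- Visible costs. -/
def fvis (F : List ℕ) (i p q : ℕ) : ℕ :=
  vs F ((i * (fB F / fμ F + 1) + p / fμ F) * (fℓ F / fμ F + 1) + (q + fℓ F / 2 - p) / fμ F)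

/-- Bound for the labels. -/
def fLab (F : List ℕ) : ℕ :=
  ((fKc F + 3 + 2 * (pw (fU F) 2 (fkr F) * fK m F) + fn F * (fKc F + 3) + 1) ^ 2 + 1) ^ 2

/-- Width of the unit boxes. -/
def fZ (F : List ℕ) (s j a : ℕ) : ℕ :=
  pw (fU F) 2 (cl a) * (fw F * pw (fU F) (2 ^ (20 * m)) (j - pw (fU F) 2 s))

/-- Number of the units in a machine of scale `s`. -/
def fKs (F : List ℕ) (s : ℕ) : ℕ := min (pw (fU F) (2 ^ (20 * m)) (pw (fU F) 2 s)) (fU F)

/-- The lanes. -/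
def flane (F : List ℕ) (s q κ j a : ℕ) (D : ℕ → ℕ → ℕ → ℕ → ℕ → ℕ)
    (c : ℕ → ℕ) (r : ℕ) : ℕ × ℕ × ℕ :=
  laneWN (fKs m F s) (pw (fU F) 2 s) (min (20 * m * pw (fU F) 2 s) (fU F))
    (fZ m F s j a) (min (px (fU F) (2 * m) s) (fU F))
    (m * pw (fU F) 2 s + 6) (pw (fU F) 16 s * m ^ 2)
    (pw (fU F) 2 (m * pw (fU F) 2 s + 8)) (min (px (fU F) (270 * m) s) (fU F))
    (px (fU F) (400 * m) s) (min (px (fU F) (70 * m) s) (fU F)) 66 (fμ F) (fB F)
    (bx a * (fKs m F s * fZ m F s j a)) (min q (fU F)) (min κ (fU F)) (cl a) (flabs m F s a)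
    c D r

end

section
variable {α : Type} [Enc α] {x : α → List ℕ}

@[fun_prop] theorem PT_fn (hx : PT ∅ x) : PT ∅ (fun a => fn (x a)) := by unfold fn; fun_prop
@[fun_prop] theorem PBd_fn (hx : PT ∅ x) : PBd (fun a => fn (x a)) := by
  unfold fn; exact PBd_min_right (by fun_prop)
@[fun_prop] theorem PT_fS (hx : PT ∅ x) : PT ∅ (fun a => fS (x a)) := by unfold fS; fun_prop
@[fun_prop] theorem PT_fμ (hx : PT ∅ x) : PT ∅ (fun a => fμ (x a)) := by unfold fμ; fun_prop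
@[fun_prop] theorem PT_fℓ (hx : PT ∅ x) : PT ∅ (fun a => fℓ (x a)) := by unfold fℓ; fun_prop
@[fun_prop] theorem PT_fw (hx : PT ∅ x) : PT ∅ (fun a => fw (x a)) := by unfold fw; fun_prop
@[fun_prop] theorem PT_fKc (hx : PT ∅ x) : PT ∅ (fun a => fKc (x a)) := by
  unfold fKc; fun_prop
@[fun_prop] theorem PT_fkr (hx : PT ∅ x) : PT ∅ (fun a => fkr (x a)) := by
  unfold fkr; fun_prop
@[fun_prop] theorem PT_fB (hx : PT ∅ x) : PT ∅ (fun a => fB (x a)) := by unfold fB; fun_prop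
@[fun_prop] theorem PT_fc (hx : PT ∅ x) : PT ∅ (fun a => fc (x a)) := by unfold fc; fun_prop
@[fun_prop] theorem PT_fe (hx : PT ∅ x) : PT ∅ (fun a => fe (x a)) := by unfold fe; fun_prop
@[fun_prop] theorem PT_fD (hx : PT ∅ x) : PT ∅ (fun a => fD (x a)) := by unfold fD; fun_prop
@[fun_prop] theorem PT_fNs (hx : PT ∅ x) : PT ∅ (fun a => fNs (x a)) := by
  unfold fNs; fun_prop
@[fun_prop] theorem PT_sd {r : α → ℕ} (hx : PT ∅ x) (hr : PT ∅ r) :
    PT ∅ (fun a => sd (x a) (r a)) := by unfold sd; fun_prop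
@[fun_prop] theorem PT_vs {r : α → ℕ} (hx : PT ∅ x) (hr : PT ∅ r) :
    PT ∅ (fun a => vs (x a) (r a)) := by unfold vs; fun_prop
@[fun_prop] theorem PT_fU (hx : PT ∅ x) : PT ∅ (fun a => fU (x a)) := by unfold fU; fun_prop
@[fun_prop] theorem PBd_fU (hx : PT ∅ x) : PBd (fun a => fU (x a)) := by unfold fU; fun_prop
@[fun_prop] theorem PT_fBL (hx : PT ∅ x) : PT ∅ (fun a => fBL (x a)) := by
  unfold fBL; fun_prop
@[fun_prop] theorem PBd_fBL (hx : PT ∅ x) : PBd (fun a => fBL (x a)) := by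
  unfold fBL; fun_prop

@[fun_prop] theorem PT_px {U c s : α → ℕ} (hU : PT ∅ U) (hUb : PBd U) (hc : PT ∅ c)
    (hs : PT ∅ s) : PT ∅ (fun a => px (U a) (c a) (s a)) := by unfold px; fun_prop

variable (m k cd D1 : ℕ)

@[fun_prop] theorem PT_fK (hx : PT ∅ x) : PT ∅ (fun a => fK m (x a)) := by
  unfold fK; fun_prop
@[fun_prop] theorem PT_fH (hx : PT ∅ x) : PT ∅ (fun a => fH m (x a)) := by
  unfold fH; fun_prop
@[fun_prop] theorem PT_fN (hx : PT ∅ x) : PT ∅ (fun a => fN m k cd (x a)) := by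
  unfold fN; fun_prop
@[fun_prop] theorem PT_fq (hx : PT ∅ x) : PT ∅ (fun a => fq m k (x a)) := by
  unfold fq
  have h1 : PT ∅ (fun a => 2 ^ (Nat.size (fℓ (x a)) - 1)) := by
    refine PT.pow (PT.const 2) (by fun_prop) ?_
    exact (PBd_natSize (f := fun a => fℓ (x a)) (by fun_prop)).mono fun a => Nat.sub_le _ _
  fun_prop
@[fun_prop] theorem PT_fCn (hx : PT ∅ x) : PT ∅ (fun a => fCn m (x a)) := by
  unfold fCn; fun_prop
@[fun_prop] theorem PT_fxi {j r : α → ℕ} (hx : PT ∅ x) (hj : PT ∅ j) (hr : PT ∅ r) :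
    PT ∅ (fun a => fxi m k (x a) (j a) (r a)) := by unfold fxi; fun_prop
@[fun_prop] theorem PT_fcoin {j s c : α → ℕ} (hx : PT ∅ x) (hj : PT ∅ j) (hs : PT ∅ s)
    (hc : PT ∅ c) : PT ∅ (fun a => fcoin m k (x a) (j a) (s a) (c a)) := by
  unfold fcoin; fun_prop
@[fun_prop] theorem PT_fkids {y : α → ℕ} (hx : PT ∅ x) (hy : PT ∅ y) :
    PT ∅ (fun a => fkids m (x a) (y a)) := by unfold fkids; fun_prop
@[fun_prop] theorem PT_flabs {s y : α → ℕ} (hx : PT ∅ x) (hs : PT ∅ s) (hy : PT ∅ y) :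
    PT ∅ (fun a => flabs m (x a) (s a) (y a)) := by unfold flabs; fun_prop
@[fun_prop] theorem PT_fcnt {s : α → ℕ} (hx : PT ∅ x) (hs : PT ∅ s) :
    PT ∅ (fun a => fcnt m (x a) (s a)) := by unfold fcnt; fun_prop
@[fun_prop] theorem PT_fvis {i p q : α → ℕ} (hx : PT ∅ x) (hi : PT ∅ i) (hp : PT ∅ p)
    (hq : PT ∅ q) : PT ∅ (fun a => fvis (x a) (i a) (p a) (q a)) := by unfold fvis; fun_prop
@[fun_prop] theorem PT_fLab (hx : PT ∅ x) : PT ∅ (fun a => fLab m (x a)) := by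
  unfold fLab; fun_prop
@[fun_prop] theorem PT_fZ {s j y : α → ℕ} (hx : PT ∅ x) (hs : PT ∅ s) (hj : PT ∅ j)
    (hy : PT ∅ y) : PT ∅ (fun a => fZ m (x a) (s a) (j a) (y a)) := by unfold fZ; fun_prop
@[fun_prop] theorem PT_fKs {s : α → ℕ} (hx : PT ∅ x) (hs : PT ∅ s) :
    PT ∅ (fun a => fKs m (x a) (s a)) := by unfold fKs; fun_prop
@[fun_prop] theorem PBd_fKs {s : α → ℕ} (hx : PT ∅ x) : PBd (fun a => fKs m (x a) (s a)) := by
  unfold fKs; exact PBd_min_right (by fun_prop)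

end

theorem pt_flane (m : ℕ) {α : Type} [Enc α] {x : α → List ℕ} {s q κ j a r : α → ℕ}
    {D : α → ℕ → ℕ → ℕ → ℕ → ℕ → ℕ} {c : α → ℕ → ℕ} (hx : PT ∅ x) (hs : PT ∅ s) (hq : PT ∅ q)
    (hκ : PT ∅ κ) (hj : PT ∅ j) (ha : PT ∅ a) (hr : PT ∅ r)
    (hD : PT ∅ (fun p : α × ℕ × ℕ × ℕ × ℕ × ℕ =>
      D p.1 p.2.1 p.2.2.1 p.2.2.2.1 p.2.2.2.2.1 p.2.2.2.2.2))
    (hc : PT ∅ (fun p : α × ℕ => c p.1 p.2)) :
    PT ∅ (fun p => flane m (x p) (s p) (q p) (κ p) (j p) (a p) (D p) (c p) (r p)) := by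
  unfold flane
  exact H220.PT_laneWN (D := D) (coin := c) (by fun_prop) (by fun_prop) (by fun_prop)
    (by fun_prop) (PBd_min_right (by fun_prop)) (by fun_prop) (by fun_prop)
    (PBd_min_right (by fun_prop)) (by fun_prop) (by fun_prop) (by fun_prop) (by fun_prop)
    (PBd_min_right (by fun_prop)) (by fun_prop) (by fun_prop) (PBd_min_right (by fun_prop))
    (by fun_prop) (by fun_prop) (by fun_prop) (by fun_prop) (by fun_prop)
    (PBd_min_right (by fun_prop)) (by fun_prop) (PBd_min_right (by fun_prop)) (by fun_prop)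
    (by fun_prop) hc hD hr

/-- Certified costs from one start. -/
def fcv (F : List ℕ) (T : KT) (MJ i u : ℕ) : List ℕ :=
  cvalRF (min (fB F / fμ F + 1) (fU F)) (fμ F) 2 (adM (fℓ F)) (cvB (fw F))
    (idxR (fℓ F) (fμ F) (fw F) (fc F)) (fvis F) T (min MJ (fU F)) i u

@[fun_prop]
theorem PT_fcv {α : Type} [Enc α] {x : α → List ℕ} {T : α → KT} {MJ i u : α → ℕ}
    (hx : PT ∅ x) (hT : PT ∅ T) (hM : PT ∅ MJ) (hi : PT ∅ i) (hu : PT ∅ u) :
    PT ∅ (fun a => fcv (x a) (T a) (MJ a) (i a) (u a)) := by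
  unfold fcv
  refine pt_cvM (n := fun a => min (fB (x a) / fμ (x a) + 1) (fU (x a)))
    (vis := fun a => fvis (x a)) (MJ := fun a => min (MJ a) (fU (x a))) (by fun_prop)
    (PBd_min_right (by fun_prop)) (by fun_prop) (by fun_prop) (by fun_prop) (by fun_prop) ?_ hT
    (by fun_prop) (PBd_min_right (by fun_prop)) hi hu
  exact PT_fvis (hx.comp PT.fst') PT.snd'.fst PT.snd'.snd.fst PT.snd'.snd.snd

/-- **The strategy of milestone 2.** -/
def st (m k cd D1 : ℕ) : TStrat (List ℕ) where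
  U := fU
  n := fn
  M := fun _ => 2 ^ (20 * m)
  μ := fμ
  H := fH m
  S := fun F => fS F + 1
  Nr := fN m k cd
  a0 := fun F => H95.enc (fkr F) 0 0
  Lab := fLab m
  Dc := fLab m
  BB := fun F => 1000 * (fU F + 2) ^ 10
  kids := fun F _ a => fkids m F a
  labs := fun F _ s a _ => flabs m F s a
  pen := fun _ _ _ a x => D1 * (ac x - ac a)
  xi := fxi m k
  coin := fcoin m k
  cnt := fcnt m
  cvF := fcv
  lane := flane m
  ptU := by fun_prop
  pbU := by fun_prop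
  ptn := by fun_prop
  pbn := by fun_prop
  ptM := by fun_prop
  ptμ := by fun_prop
  ptH := by fun_prop
  ptS := by fun_prop
  ptNr := by fun_prop
  pta0 := by fun_prop
  ptLab := by fun_prop
  ptDc := by fun_prop
  ptBB := by fun_prop
  pbBB := by fun_prop
  ptkids := by fun_prop
  ptlabs := by fun_prop
  ptpen := by fun_prop
  ptxi := by fun_prop
  ptcoin := by fun_prop
  ptcnt := by fun_prop
  ptcvF := by fun_prop
  ptlane := fun hx hs hq hκ hj ha hm hD hc => pt_flane m hx hs hq hκ hj ha hm hD hc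

end Vale.Agent.P315.H207.M2
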