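import Vale.Agent.P315.H207.M2Cst
import Vale.Agent.P315.H155.M2Run

/-!
P315, milestone 2, row M2-TSTRAT: the output of the strategy on the feed of the main program.
-/

set_option autoImplicit false

namespace Vale.Agent.P315.H207.M2

open Vale.Agent.P315.H608 Vale.Agent.P315.H527 Vale.Agent.P315.H873 Vale.Agent.P315.H809
open Vale.Agent.P315.H155 Vale.Agent.P315.C Vale.Agent.P315.RAM

section

variable {c : Cst2} {m k cd D1 : ℕ}

theorem KD_lt' (c : Cst2) (N g : ℕ) : c.K g * c.ℓ2 N g < c.D2 g * c.μ2 N g := by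
  have h1 := Cst2.D2_ge (c := c) N g
  have h2 : c.K g * 2 ^ (c.w g + c.z g) < c.D2 g := by
    have h3 : 1 ≤ c.B2 N g / c.μ2 N g + 1 := Nat.le_add_left 1 _
    omega
  unfold Cst2.ℓ2
  rw [← mul_assoc]
  exact Nat.mul_lt_mul_of_pos_right h2 (Cst2.μ2_pos N g)

/-- The grid. -/
theorem grid (c : Cst2) (hbm : c.bm = 20 * m) (q : ℕ) (p : ℕ × ℕ) :
    Grid ((2 ^ (20 * m)) ^ c.L (gp c q p)) (c.μ2 (sl p) (gp c q p)) (c.ℓ2 (sl p) (gp c q p))
      (c.w0 (sl p) (gp c q p)) (c.B2 (sl p) (gp c q p)) (c.c0 (sl p) (gp c q p)) (pe2 c q p)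
      (c.D2 (gp c q p)) where
  ev := even_ℓ2 _ _
  dl := dvd_half _ _
  dw := Cst2.μ2_dvd_w0 _ _
  dc := Cst2.μ2_dvd_c0 _ _
  de := dvd_pe2 q p
  cB := Cst2.c0_le_B2 _ _
  eB := pe2_le q p
  hD := KD_lt hbm _ _

/-- The answers of the main program. -/
theorem ans_mulF (c : Cst2) (q cb N₀ : ℕ) (x y : List ℕ) :
    (mulF c q cb N₀).ans x y = H817.stAns (fun i => x.getD i 0) (fun i => y.getD i 0)
      (c.ℓ2 (sl (len2 x y)) (gp c q (len2 x y))) (c.μ2 (sl (len2 x y)) (gp c q (len2 x y)))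
      (c.ℓ2 (sl (len2 x y)) (gp c q (len2 x y)) / c.μ2 (sl (len2 x y)) (gp c q (len2 x y)))
      (c.D2 (gp c q (len2 x y))) := by
  rw [Cst2.ℓ2_div_μ2]
  rfl

/-- The family at the parameters of the main program. -/
noncomputable abbrev fam2M (c : Cst2) (m k cd D1 q : ℕ) (p : ℕ × ℕ) : QPar :=
  fam2 m k cd D1 (c.L (gp c q p)) (c.S (gp c q p)) (c.ℓ2 (sl p) (gp c q p))
    (c.μ2 (sl p) (gp c q p)) (c.B2 (sl p) (gp c q p)) (c.w0 (sl p) (gp c q p))
    (c.Kc (gp c q p)) (c.Kc (gp c q p))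

/-- **The output of the strategy on a feed of the main program.** -/
theorem fin_mulF (c : Cst2) (hbm : c.bm = 20 * m) (q cb N₀ : ℕ) (x y : List ℕ) {F : List ℕ}
    (hF : FitM c q m k F (len2 x y)) {vis : Leaf}
    (hvis : H731.AgreeOn (fam2M c m k cd D1 q (len2 x y)).P
      ((2 ^ (20 * m)) ^ c.L (gp c q (len2 x y))) (fvis F) vis) (Q : ℕ) :
    ∃ R : Finset (ℕ × ℕ),
      (m2Strat m k cd D1).fin ((mulF c q cb N₀).ans x y) Q F =
        cval (fam2M c m k cd D1 q (len2 x y)).P vis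
          (H54.hidM (fun i => x.getD i 0) (fun i => y.getD i 0)
            (c.ℓ2 (sl (len2 x y)) (gp c q (len2 x y)) / 2)
            (c.c0 (sl (len2 x y)) (gp c q (len2 x y)))) R (c.L (gp c q (len2 x y))) 0
          (c.c0 (sl (len2 x y)) (gp c q (len2 x y))) (pe2 c q (len2 x y)) +
          (2 * c.μ2 (sl (len2 x y)) (gp c q (len2 x y)) + 1) ∧
      ((rd (fam2M c m k cd D1 q (len2 x y)).P (fam2M c m k cd D1 q (len2 x y)).mc
        (rndF m k (c.L (gp c q (len2 x y))) (c.S (gp c q (len2 x y)))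
          (c.ℓ2 (sl (len2 x y)) (gp c q (len2 x y))) F) vis
        (H54.hidM (fun i => x.getD i 0) (fun i => y.getD i 0)
            (c.ℓ2 (sl (len2 x y)) (gp c q (len2 x y)) / 2)
            (c.c0 (sl (len2 x y)) (gp c q (len2 x y)))) (c.L (gp c q (len2 x y))) 0
        (H95.enc (c.Kc (gp c q (len2 x y))) 0 0)
        (fam2M c m k cd D1 q (len2 x y)).N).card *
          (2 ^ (c.Kc (gp c q (len2 x y)) + 4) * 2 ^ c.z (gp c q (len2 x y)) + 1) ≤ Q →
        R = rd (fam2M c m k cd D1 q (len2 x y)).P (fam2M c m k cd D1 q (len2 x y)).mc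
        (rndF m k (c.L (gp c q (len2 x y))) (c.S (gp c q (len2 x y)))
          (c.ℓ2 (sl (len2 x y)) (gp c q (len2 x y))) F) vis
        (H54.hidM (fun i => x.getD i 0) (fun i => y.getD i 0)
            (c.ℓ2 (sl (len2 x y)) (gp c q (len2 x y)) / 2)
            (c.c0 (sl (len2 x y)) (gp c q (len2 x y)))) (c.L (gp c q (len2 x y))) 0
        (H95.enc (c.Kc (gp c q (len2 x y))) 0 0)
        (fam2M c m k cd D1 q (len2 x y)).N) := by
  rw [ans_mulF, ← Cst2.w0_div_μ2 (sl (len2 x y)) (gp c q (len2 x y))]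
  exact m2_fin hF.fit (grid c hbm q _) hF.hD _ _ hF.hpe hvis Q

/-- The number of the rounds is large enough if the read set is small. -/
theorem rounds_le {c : Cst2} {g r : ℕ} (h : r ≤ c.Q g) :
    r * (2 ^ (c.Kc g + 4) * 2 ^ c.z g + 1) ≤ c.Q2 g := by
  unfold Cst2.Q2
  refine Nat.mul_le_mul h ?_
  rw [← pow_add, show c.Kc g + c.z g + 5 = (c.Kc g + 4 + c.z g) + 1 by ring, pow_succ]
  have : 1 ≤ 2 ^ (c.Kc g + 4 + c.z g) := Nat.one_le_two_pow
  omega

end

end Vale.Agent.P315.H207.M2
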