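import Vale.Agent.P315.H207.M2Def
import Vale.Agent.P315.Q.TabRN
import Vale.Agent.P315.H804.Inst
import Vale.Agent.P315.H659.Seed

/-!
P315, milestone 2, row M2-TSTRAT: the machines and labels of `H155.fam2` satisfy the requirements of
`H207/RdL.lean` (locality, valid labels, nestedness).
-/

set_option autoImplicit false
set_option linter.unusedSectionVars false

namespace Vale.Agent.P315.H207.M2

open Vale.Agent.Lib.PolyTime Vale.Agent.P315.H155 Vale.Agent.P315.Q Vale.Agent.P315.H763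
open Vale.Agent.P315.C Vale.Agent.P315.H804
open Vale.Agent.P315.H95 (cl bx ac clsPar wd)

/-! ### Penalties and nestedness -/

theorem penOK_cls (m ℓ μ B w0 J S H Kc D1 : ℕ) : PenOK (clsPar m ℓ μ B w0 J S H Kc D1) := by
  intro j e a x hx
  unfold Par.desc at hx
  obtain ⟨a', ha', hx'⟩ := Finset.mem_biUnion.1 hx
  exact ⟨a', ha', hx', (H95.pen_add ha' hx').le⟩

theorem pen0_cls (m ℓ μ B w0 J S H Kc D1 : ℕ) (j a : ℕ) :
    (clsPar m ℓ μ B w0 J S H Kc D1).pen j 0 a a = 0 := by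
  show D1 * (ac a - ac a) = 0
  rw [Nat.sub_self, Nat.mul_zero]

/-- The units in the history of a region lie in its read set. -/
theorem nest_of {P : Par} {mc : Mach} {ω : Rnd} {vis hid : Leaf} (hM : 0 < P.M)
    (hpen : PenOK P) (hpen0 : ∀ j a, P.pen j 0 a a = 0) {j i a : ℕ} {z : ℤ} {s κ r x : ℕ}
    (hj : 0 < j) (hd : 2 ^ s ∣ j) (hκ : κ < (z + P.H + 1).toNat) (hr : r < P.M ^ 2 ^ s)
    (hx : x ∈ P.desc j (2 ^ s) a) :
    rd P mc ω vis hid (j - 2 ^ s) (i * P.M ^ 2 ^ s + r) x (uidx P ω j a s κ r x) ⊆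
      rd P mc ω vis hid j i a z := by
  refine Finset.Subset.trans ?_ (rd_desc (mc := mc) (ω := ω) (vis := vis) (h := hid)
    hM hpen hpen0 (Nat.le_of_dvd hj hd) hr hx z)
  unfold uidx
  refine rd_mono ?_ _ _ _
  omega

/-! ### Valid labels -/

/-- Valid labels of level `j`. -/
def V (m w0 Kc kr n j a : ℕ) : Prop := j ≤ n ∧ VLab m w0 Kc kr n j a

section
variable {m ℓ μ B w0 J S H Kc kr n D1 : ℕ}

theorem V_root (h : kr ≤ Kc) : V m w0 Kc kr n n (H95.enc kr 0 0) := ⟨le_rfl, vlab_root h⟩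

theorem V_kid {j a a' : ℕ} (hj : 0 < j) (h : V m w0 Kc kr n j a) (ha : a' ∈ H95.kids m Kc a) :
    V m w0 Kc kr n (j - 1) a' := by
  obtain ⟨j, rfl⟩ : ∃ j', j = j' + 1 := ⟨j - 1, by omega⟩
  rw [Nat.add_sub_cancel]
  exact ⟨by have := h.1; omega, h.2.kid (by have := h.1; omega) ha⟩

theorem V_desc {j a x e : ℕ} (he : e ≤ j) (h : V m w0 Kc kr n j a) (hx : x ∈ descL m Kc a e) :
    V m w0 Kc kr n (j - e) x := by
  refine ⟨by have := h.1; omega, VLab.desc (j := j - e) e ?_ (by have := h.1; omega) hx⟩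
  rw [Nat.sub_add_cancel he]
  exact h.2

theorem V_lab {j a x s : ℕ} (hj : 0 < j) (hd : 2 ^ s ∣ j) (h : V m w0 Kc kr n j a)
    (hx : x ∈ labL m Kc s a) : V m w0 Kc kr n (j - 2 ^ s) x :=
  V_desc (Nat.le_of_dvd hj hd) h (mem_labL_descL hx)

end

/-! ### The machines -/

section
variable {X : MPW} {LB : ℕ → ℕ → List ℕ} {m ℓ μ B w0 J S H Kc D1 : ℕ}

/-- The machines use only the listed labels and mesh positions. -/
theorem machW_loc (hLB : ∀ s a, LB s a ≠ []) :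
    LaneLoc (clsPar m ℓ μ B w0 J S H Kc D1) (machW X LB m μ B w0) (fun _ s a _ => LB s a) := by
  intro s q κ j a D D' coin _ _ _ h r _
  refine laneWN_congr (hLB s a) ?_ r
  intro κ' hκ' r' hr' x hx u v hu huB hv hvB
  exact h κ' hκ' r' hr' x hx u v ⟨hu, huB⟩ ⟨hv, hvB⟩

theorem machW_label (hLB : ∀ s a, LB s a ≠ []) (s q κ j a : ℕ) (D : ℕ → ℕ → ℕ → ℕ → ℕ → ℕ)
    (coin : ℕ → ℕ) (r : ℕ) : ((machW X LB m μ B w0).lane s q κ j a D coin r).1 ∈ LB s a :=
  laneWN_label (hLB s a) coin D r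

end

/-! ### The numbers -/

/-- The feed `F` belongs to the parameters, and its clock is large enough. -/
structure Fit (m k : ℕ) (F : List ℕ) (n S μ ℓ w0 Kc kr B c0 : ℕ) : Prop where
  hn : F.getD 0 0 = n
  hS : F.getD 1 0 = S
  hμ : F.getD 2 0 = μ
  hℓ : F.getD 3 0 = ℓ
  hw : F.getD 4 0 = w0
  hKc : F.getD 5 0 = Kc
  hkr : F.getD 6 0 = kr
  hB : F.getD 7 0 = B
  hc : F.getD 8 0 = c0
  m0 : 0 < m
  μ0 : 0 < μ
  w00 : 0 < w0
  krKc : kr ≤ Kc + 3
  nlen : n ≤ F.length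
  Slen : S ≤ F.length
  Klen : Kc ≤ F.length
  krlen : kr ≤ F.length
  big : 2 ^ (400 * m * 2 ^ S + 20) ≤ fU F
  K : (2 ^ (20 * m)) ^ n ≤ fU F
  nr : 2 ^ k * n + 2 * famH m n S + 20 ≤ fU F
  kU : k + 270 * m * 2 ^ S ≤ fU F
  lab : labB (20 * m) (Kc + 3) kr n ≤ fU F
  kid : 2 * 2 ^ (Kc + 3 + 20 * m) ≤ fU F
  mesh : B / μ + 1 ≤ fU F

/-- The random data in the feed. -/
def rndF (m k n S ℓ : ℕ) (F : List ℕ) : Rnd :=
  H659.rndOf n (2 ^ (20 * m)) (S + 1) (2 ^ (4 * m * 2 ^ S)) (2 ^ k - 1)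
    (fun r => sd F r % 2 ^ (k + 270 * m * 2 ^ S + Nat.log 2 ℓ + 1))

section
variable {m k cd D1 : ℕ} {F : List ℕ} {n S μ ℓ w0 Kc kr B c0 : ℕ}
  (hF : Fit m k F n S μ ℓ w0 Kc kr B c0)
include hF

theorem fn_eq : fn F = n := by unfold fn; rw [hF.hn]; exact min_eq_left hF.nlen
theorem fS_eq : fS F = S := by unfold fS; rw [hF.hS]; exact min_eq_left hF.Slen
theorem fμ_eq : fμ F = μ := hF.hμ
theorem fℓ_eq : fℓ F = ℓ := hF.hℓ
theorem fw_eq : fw F = w0 := hF.hw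
theorem fKc_eq : fKc F = Kc := by unfold fKc; rw [hF.hKc]; exact min_eq_left hF.Klen
theorem fkr_eq : fkr F = kr := by unfold fkr; rw [hF.hkr]; exact min_eq_left hF.krlen
theorem fB_eq : fB F = B := hF.hB
theorem fc_eq : fc F = c0 := hF.hc

omit hF in
theorem len_le_U (F : List ℕ) : F.length + 2 ≤ fU F := Nat.le_self_pow (by norm_num) _

theorem n_le : n ≤ fU F := by
  have h1 := hF.nlen
  have h2 := len_le_U F
  omega

theorem e_le : 400 * m * 2 ^ S + 20 ≤ fU F := Nat.lt_two_pow_self.le.trans hF.big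

theorem mS_ge : 2 ^ S ≤ m * 2 ^ S := Nat.le_mul_of_pos_left _ hF.m0

theorem S_le : S + 1 ≤ fU F := by
  have h1 := hF.Slen
  have h2 := len_le_U F
  omega

theorem p2s {s : ℕ} (hs : s ≤ S) : pw (fU F) 2 s = 2 ^ s :=
  pw_eq (by have := S_le hF; omega)

theorem pS_le : 2 ^ S ≤ fU F := by
  have h1 := e_le hF
  have h2 := mS_ge hF
  have h3 : 400 * m * 2 ^ S = 400 * (m * 2 ^ S) := by ring
  omega

omit hF in
theorem ms_le {s : ℕ} (hs : s ≤ S) : m * 2 ^ s ≤ m * 2 ^ S :=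
  Nat.mul_le_mul_left _ (Nat.pow_le_pow_right (by norm_num) hs)

theorem exp_le {s c d : ℕ} (hs : s ≤ S) (hc : c ≤ 400) (hd : d ≤ 20) :
    c * m * 2 ^ s + d ≤ 400 * m * 2 ^ S + 20 := by
  have h2 := ms_le (m := m) hs
  have h3 : c * m * 2 ^ s = c * (m * 2 ^ s) := by ring
  have h4 : 400 * m * 2 ^ S = 400 * (m * 2 ^ S) := by ring
  have h5 : c * (m * 2 ^ s) ≤ 400 * (m * 2 ^ S) := Nat.mul_le_mul hc h2
  omega

theorem pwc {s c d : ℕ} (hs : s ≤ S) (hc : c ≤ 400) (hd : d ≤ 20) :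
    pw (fU F) 2 (c * m * pw (fU F) 2 s + d) = 2 ^ (c * m * 2 ^ s + d) := by
  rw [p2s hF hs]
  exact pw_eq ((exp_le hF hs hc hd).trans (e_le hF))

theorem pow_le_U {s c d : ℕ} (hs : s ≤ S) (hc : c ≤ 400) (hd : d ≤ 20) :
    2 ^ (c * m * 2 ^ s + d) ≤ fU F :=
  (Nat.pow_le_pow_right (by norm_num) (exp_le hF hs hc hd)).trans hF.big

theorem px_eq' {s c : ℕ} (hs : s ≤ S) (hc : c ≤ 400) :
    px (fU F) (c * m) s = 2 ^ (c * m * 2 ^ s) := pwc hF (d := 0) hs hc (by norm_num)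

theorem Dl_eq {s : ℕ} (hs : s ≤ S) : pw (fU F) 16 s * m ^ 2 = 16 ^ s * m ^ 2 := by
  rw [pw_eq (by have := S_le hF; omega)]

theorem R_eq {s : ℕ} (hs : s ≤ S) : pw (fU F) 2 (m * pw (fU F) 2 s + 8) =
    2 ^ (m * 2 ^ s + 8) := by
  have := pwc hF (c := 1) (d := 8) hs (by norm_num) (by norm_num)
  rw [one_mul] at this
  exact this

theorem Cn_eq : fCn m F = 2 ^ (4 * m * 2 ^ S) := by
  unfold fCn
  rw [fS_eq hF]
  exact px_eq' hF le_rfl (by norm_num)

theorem fH_eq : fH m F = famH m n S := by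
  unfold fH famH
  rw [fn_eq hF, fS_eq hF, pw_eq (by have := S_le hF; omega), pw_eq (by have := S_le hF; omega)]

theorem fK_eq : fK m F = (2 ^ (20 * m)) ^ n := by
  unfold fK; rw [fn_eq hF]; exact pw_eq (n_le hF)

omit hF in
theorem log_eq (x : ℕ) : Nat.size x - 1 = Nat.log 2 x := by
  rcases Nat.eq_zero_or_pos x with rfl | hx
  · simp
  · have h1 : Nat.size x = Nat.log 2 x + 1 := by
      apply le_antisymm
      · rw [Nat.size_le]
        exact Nat.lt_pow_succ_log_self (by norm_num) x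
      · by_contra h
        push Not at h
        have h2 : x < 2 ^ Nat.log 2 x :=
          lt_of_lt_of_le (Nat.lt_size_self x) (Nat.pow_le_pow_right (by norm_num) (by omega))
        have h3 := Nat.pow_log_le_self 2 hx.ne'
        omega
    omega

theorem fq_eq : fq m k F = 2 ^ (k + 270 * m * 2 ^ S + Nat.log 2 ℓ + 1) := by
  unfold fq
  rw [fS_eq hF, p2s hF le_rfl, pw_eq hF.kU, fℓ_eq hF, log_eq, pow_succ, pow_add]
  ring

omit hF in
/-- Number of machines. -/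
theorem famCnt_le (hm : 0 < m) (s : ℕ) : (famMPW m).cnt s ≤ 2 ^ (16 * (m * 2 ^ s) + 20) := by
  unfold MPW.cnt
  split_ifs with h0
  · exact Nat.zero_le _
  have h1 : (famMPW m).g s = 2 ^ (2 * (m * 2 ^ s)) := by
    show 2 ^ (2 * m * 2 ^ s) = _
    congr 1; ring
  have h2 : (famMPW m).Sm s = 2 ^ (4 * (m * 2 ^ s)) := by
    show 2 ^ (4 * m * 2 ^ s) = _
    congr 1; ring
  have h3 : (famMPW m).R s = 2 ^ (m * 2 ^ s + 8) := rfl
  have h4 : (famMPW m).NL s = m * 2 ^ s + 6 := rfl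
  have h5 : (famMPW m).Dl s ≤ 2 ^ (4 * (m * 2 ^ s)) := by
    show 16 ^ s * m ^ 2 ≤ _
    have e1 : (16 : ℕ) ^ s = (2 ^ s) ^ 4 := by
      rw [← pow_mul, mul_comm, pow_mul]; norm_num
    have e2 : m ^ 2 ≤ m ^ 4 := Nat.pow_le_pow_right hm (by norm_num)
    calc 16 ^ s * m ^ 2 ≤ (2 ^ s) ^ 4 * m ^ 4 := by rw [e1]; exact Nat.mul_le_mul_left _ e2
      _ = (m * 2 ^ s) ^ 4 := by ring
      _ ≤ (2 ^ (m * 2 ^ s)) ^ 4 := Nat.pow_le_pow_left Nat.lt_two_pow_self.le 4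
      _ = 2 ^ (4 * (m * 2 ^ s)) := by rw [← pow_mul]; congr 1; ring
  have hx1 : 1 ≤ m * 2 ^ s := Nat.mul_pos hm (by positivity)
  set x := m * 2 ^ s
  have h6 : x < 2 ^ x := Nat.lt_two_pow_self
  have h7 : 1 ≤ 2 ^ (2 * x) := Nat.one_le_two_pow
  unfold H220.cntQ
  rw [h1, h2, h3, h4]
  calc (2 * 2 ^ (2 * x) + 1) * ((2 * (2 * 2 ^ (2 * x)) + 1) * ((x + 6) * ((famMPW m).Dl s *
        (2 ^ (x + 8) * 2 ^ (4 * x)))))
      ≤ (3 * 2 ^ (2 * x)) * ((5 * 2 ^ (2 * x)) * (7 * 2 ^ x * (2 ^ (4 * x) *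
        (2 ^ (x + 8) * 2 ^ (4 * x))))) := by gcongr <;> omega
    _ = 26880 * 2 ^ (14 * x) := by
        rw [show 14 * x = 2 * x + 2 * x + x + 4 * x + x + 4 * x by ring, pow_add, pow_add,
          pow_add, pow_add, pow_add, pow_add]
        ring
    _ ≤ 2 ^ (16 * x + 20) := by
        rw [show 16 * x + 20 = 14 * x + (2 * x + 20) by ring, pow_add, mul_comm]
        refine Nat.mul_le_mul_left _ ?_
        calc 26880 ≤ 2 ^ 20 := by norm_num
          _ ≤ 2 ^ (2 * x + 20) := Nat.pow_le_pow_right (by norm_num) (by omega)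

theorem ucnt {s : ℕ} (hs : s ≤ S) : (famMPW m).cnt s ≤ fU F := by
  refine (famCnt_le hF.m0 s).trans ?_
  have := pow_le_U hF (c := 16) (d := 20) hs (by norm_num) (by norm_num)
  rwa [show 16 * m * 2 ^ s = 16 * (m * 2 ^ s) by ring] at this

theorem cnt_eq {s : ℕ} (hs : s ≤ S) : fcnt m F s = (famMPW m).cnt s := by
  unfold fcnt MPW.cnt
  rw [px_eq' hF hs (by norm_num), p2s hF hs, Dl_eq hF hs, px_eq' hF hs (by norm_num)]
  have h := R_eq hF hs
  rw [p2s hF hs] at h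
  rw [h]
  rfl

theorem Mh_le {s : ℕ} (hs : s ≤ S) : (2 ^ (20 * m)) ^ 2 ^ s ≤ fU F := by
  have := pow_le_U hF (c := 20) (d := 0) hs (by norm_num) (by norm_num)
  rw [pow_add, pow_mul, pow_zero, mul_one] at this
  exact this

theorem M_le : 2 ^ (20 * m) ≤ fU F := by
  have h1 := Mh_le hF (Nat.zero_le S)
  rwa [pow_zero, pow_one] at h1

theorem Mpw {s : ℕ} (hs : s ≤ S) : pw (fU F) (2 ^ (20 * m)) (pw (fU F) 2 s) =
    (2 ^ (20 * m)) ^ 2 ^ s := by
  rw [p2s hF hs]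
  exact pw_eq ((Nat.pow_le_pow_right (by norm_num) hs).trans (pS_le hF))

theorem fKs_eq {s : ℕ} (hs : s ≤ S) : fKs m F s = (2 ^ (20 * m)) ^ 2 ^ s := by
  unfold fKs
  rw [Mpw hF hs, min_eq_left (Mh_le hF hs)]

theorem Kc_le : Kc + 3 ≤ fU F := by
  have h1 := hF.kid
  have h2 : Kc + 3 + 20 * m < 2 ^ (Kc + 3 + 20 * m) := Nat.lt_two_pow_self
  omega

theorem fLab_eq : fLab m F = labB (20 * m) (Kc + 3) kr n := by
  unfold fLab labB
  rw [fKc_eq hF, fkr_eq hF, fK_eq hF, fn_eq hF,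
    pw_eq (show kr ≤ fU F by have := Kc_le hF; have := hF.krKc; omega)]

theorem labBB_le : labBB (labB (20 * m) (Kc + 3) kr n) ≤ fBL F := by
  unfold labBB fBL
  have := hF.lab
  gcongr

theorem kids_eq {j a : ℕ} (ha : VLab (20 * m) w0 (Kc + 3) kr n j a) :
    fkids m F a = kidsL (20 * m) (Kc + 3) a := by
  unfold fkids
  rw [fKc_eq hF]
  exact ha.kidsC hF.kid

theorem labs_eq {s j a : ℕ} (hs : s ≤ S) (hj : 0 < j) (hd : 2 ^ s ∣ j)
    (ha : V (20 * m) w0 (Kc + 3) kr n j a) : flabs m F s a = labL (20 * m) (Kc + 3) s a := by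
  unfold flabs
  rw [fKc_eq hF]
  have hle : 2 ^ s ≤ j := Nat.le_of_dvd hj hd
  refine labC_eq (j := j - 2 ^ s) hF.w00 ?_ ?_ hF.kid (n_le hF) (labBB_le hF) ?_
  · rw [Nat.sub_add_cancel hle]
    exact ha.2
  · rw [Nat.sub_add_cancel hle]
    exact ha.1
  · have h1 := exp_le hF (c := 20) (d := 0) hs (by norm_num) (by norm_num)
    have h2 := e_le hF
    omega

theorem fZ_eq {s j a : ℕ} (hs : s ≤ S) (hj : j ≤ n) (ha : cl a ≤ Kc + 3) :
    fZ m F s j a = wd (20 * m) w0 (j - 2 ^ s) (cl a) := by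
  unfold fZ wd
  have h1 := Kc_le hF
  have h2 := n_le hF
  rw [fw_eq hF, p2s hF hs, pw_eq (show cl a ≤ fU F by omega),
    pw_eq (((Nat.sub_le j (2 ^ s)).trans hj).trans h2)]

theorem Nr_le : fN m k cd F + n + 1 ≤ fU F := by
  unfold fN
  rw [fH_eq hF, fn_eq hF]
  have h1 := hF.nr
  have h2 : (2 ^ k - 1) * n / 2 ≤ 2 ^ k * n :=
    (Nat.div_le_self _ _).trans (Nat.mul_le_mul_right _ (Nat.sub_le _ _))
  have h3 : n ≤ famH m n S := (Nat.le_add_right n (2 ^ S)).trans (Nat.le_add_right _ _)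
  generalize 2 ^ k * n = b at *
  generalize (2 ^ k - 1) * n / 2 = c at *
  generalize (n + cd - 1) / cd = d at *
  omega

end

/-! ### The algorithm -/

/-- Certified costs from the answers. -/
def cvS (ℓ μ B w0 c0 : ℕ) (M : ℕ) (vis : Leaf) (h : Cell → List ℕ) (l : List Cell)
    (j i u v : ℕ) : ℕ :=
  (cvalRF (B / μ + 1) μ 2 (adM ℓ) (cvB w0) (idxR ℓ μ w0 c0) vis (l.map fun c => (c, h c))
    (M ^ j) i (u / μ)).getD (v / μ) 0

/-- The algorithm of the family. -/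
def SF (m k D1 n S μ ℓ w0 Kc B c0 : ℕ) (F : List ℕ) : Strat (List ℕ) where
  P := clsPar (20 * m) ℓ μ B w0 (2 ^ k - 1) (S + 1) (famH m n S) (Kc + 3) D1
  mc := famMach m μ B w0 Kc
  ω := rndF m k n S ℓ F
  kidsL := fun _ a => kidsL (20 * m) (Kc + 3) a
  labs := fun _ s a _ => labL (20 * m) (Kc + 3) s a
  cv := cvS ℓ μ B w0 c0 (2 ^ (20 * m)) (fvis F)

section
variable {m k D1 n S μ ℓ w0 Kc B c0 : ℕ} {F : List ℕ}

theorem SF_loc : (SF m k D1 n S μ ℓ w0 Kc B c0 F).Loc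
    (Pos (clsPar (20 * m) ℓ μ B w0 (2 ^ k - 1) (S + 1) (famH m n S) (Kc + 3) D1)) where
  cv := by
    intro h h' l hl
    show cvS ℓ μ B w0 c0 (2 ^ (20 * m)) (fvis F) h l = cvS ℓ μ B w0 c0 (2 ^ (20 * m)) (fvis F) h' l
    unfold cvS
    have : (l.map fun c => (c, h c)) = l.map fun c => (c, h' c) :=
      List.map_congr_left fun c hc => by rw [hl c hc]
    rw [this]
  lane := machW_loc (fun s a => labL_ne _ _ _ _)

/-- **The instance is faithful**: the answers are those of the true costs in the moving frame. -/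
theorem SF_faithful {kr : ℕ} (X Y : ℕ → ℕ) (hμ : 0 < μ) (hw : 0 < w0) (hd : μ ∣ ℓ / 2)
    (hdw : μ ∣ w0) (h0 : μ ∣ c0) (hev : ℓ = 2 * (ℓ / 2)) :
    (SF m k D1 n S μ ℓ w0 Kc B c0 F).Faithful
      (Pos (clsPar (20 * m) ℓ μ B w0 (2 ^ k - 1) (S + 1) (famH m n S) (Kc + 3) D1))
      (V (20 * m) w0 (Kc + 3) kr n) (fvis F) (H54.hidM X Y (ℓ / 2) c0)
      (fun c => cellR X Y ℓ μ w0 c0 c.1 c.2) where
  loc := SF_loc
  cv := fun l j i u v hu hv =>
    cvM_eq (m := 20 * m) (J := 2 ^ k - 1) (S := S + 1) (H := famH m n S) (Kc := Kc + 3)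
      (D1 := D1) X Y hμ hw hd hdw h0 hev (fvis F) (fun _ _ _ _ _ _ _ _ => rfl) l j i hu.1 hv.1
      hv.2
  kids := fun j a => kidsL_toFinset _ _ _
  vkids := fun j a hj ha a' ha' => V_kid hj ha ha'
  vlabs := fun j a s r hj _ hd ha _ x hx => V_lab hj hd ha hx
  vlane := fun s q κ j a D coin r hj _ hd ha _ _ =>
    V_lab hj hd ha (machW_label (fun s a => labL_ne _ _ _ _) s q κ j a D coin r)
  nest := fun j i a z s κ r x hj _ hd _ hκ hr hx =>
    nest_of (by show 0 < 2 ^ (20 * m); positivity) (penOK_cls _ _ _ _ _ _ _ _ _ _)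
      (pen0_cls _ _ _ _ _ _ _ _ _ _) hj hd hκ hr (labL_desc s j a x hx)

/-- **The clocked strategy is the algorithm.** -/
theorem link {cd kr : ℕ} (hF : Fit m k F n S μ ℓ w0 Kc kr B c0) :
    Link (st m k cd D1) F (SF m k D1 n S μ ℓ w0 Kc B c0 F) (V (20 * m) w0 (Kc + 3) kr n)
      (Pos (clsPar (20 * m) ℓ μ B w0 (2 ^ k - 1) (S + 1) (famH m n S) (Kc + 3) D1)) where
  loc := SF_loc
  hM := rfl
  hS := by
    show S + 1 = fS F + 1
    rw [fS_eq hF]
  hH := (fH_eq hF).symm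
  uM := M_le hF
  un := by
    show fn F ≤ _
    rw [fn_eq hF]; exact n_le hF
  uS := by
    show fS F + 1 ≤ _
    rw [fS_eq hF]; exact S_le hF
  uN := by
    show fN m k cd F + fn F + 1 ≤ _
    rw [fn_eq hF]; exact Nr_le hF (cd := cd)
  uL := by
    show fLab m F ≤ _
    rw [fLab_eq hF]
    exact hF.lab
  uP := by
    show (2 ^ (20 * m)) ^ fn F ≤ _
    rw [fn_eq hF]
    exact hF.K
  Mpos := by show 0 < 2 ^ (20 * m); positivity
  cnt := fun s hs => by
    have hs' : s < fS F + 1 := hs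
    rw [fS_eq hF] at hs'
    exact cnt_eq hF (by omega)
  ucnt := fun s hs => by
    have hs' : s < fS F + 1 := hs
    rw [fS_eq hF] at hs'
    exact ucnt hF (by omega)
  xi := fun j r => by
    show fxi m k F j r = (rndF m k n S ℓ F).xi j r
    unfold fxi rndF H659.rndOf H659.adXi
    rw [fn_eq hF, fq_eq hF]
  coin := fun j s => by
    funext c
    show fcoin m k F j s c = (rndF m k n S ℓ F).coin j s c
    unfold fcoin rndF H659.rndOf H659.adCoin
    rw [fn_eq hF, fS_eq hF, Cn_eq hF, fq_eq hF]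
  pen := fun _ _ _ _ => rfl
  kids := fun j a _ _ ha => kids_eq hF ha.2
  vkids := fun j a hj _ ha a' ha' => V_kid hj ha (mem_kidsL.1 ha')
  labs := fun j s a r hj _ hs hd ha _ => by
    have hs' : s < fS F + 1 := hs
    rw [fS_eq hF] at hs'
    exact labs_eq hF (by omega) hj hd ha
  vlabs := fun j s a r hj _ _ hd ha _ x hx => V_lab hj hd ha hx
  lane := fun s q κ j a D c r hs hj hjn hd ha hq hκ _ => by
    have hs' : s < fS F + 1 := hs
    rw [fS_eq hF] at hs'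
    have hs2 : s ≤ S := by omega
    have hjn' : j ≤ n := ha.1
    have hq' : q < (famMPW m).cnt s := hq
    have hκ' : κ < fU F := hκ
    have huc := ucnt hF hs2
    have hca : cl a ≤ Kc + 3 := ha.2.1
    show flane m F s q κ j a D c r =
      (famMach m μ B w0 Kc).lane s q κ j a D c r
    unfold flane famMach machW
    simp only
    rw [fKs_eq hF hs2, fZ_eq hF hs2 hjn' hca, px_eq' hF hs2 (by norm_num),
      px_eq' hF hs2 (by norm_num), px_eq' hF hs2 (by norm_num), px_eq' hF hs2 (by norm_num),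
      Dl_eq hF hs2, R_eq hF hs2, p2s hF hs2, labs_eq hF hs2 hj hd ha, fμ_eq hF, fB_eq hF,
      min_eq_left (show q ≤ fU F by omega), min_eq_left hκ'.le,
      min_eq_left (show 20 * m * 2 ^ s ≤ fU F by
        have h1 := exp_le hF (c := 20) (d := 0) hs2 (by norm_num) (by norm_num)
        have h2 := e_le hF
        omega),
      min_eq_left (show 2 ^ (2 * m * 2 ^ s) ≤ fU F from
        pow_le_U hF (c := 2) (d := 0) hs2 (by norm_num) (by norm_num)),
      min_eq_left (show 2 ^ (270 * m * 2 ^ s) ≤ fU F from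
        pow_le_U hF (c := 270) (d := 0) hs2 (by norm_num) (by norm_num)),
      min_eq_left (show 2 ^ (70 * m * 2 ^ s) ≤ fU F from
        pow_le_U hF (c := 70) (d := 0) hs2 (by norm_num) (by norm_num))]
    rfl
  vlane := fun s q κ j a D c r _ hj _ hd ha _ _ _ =>
    V_lab hj hd ha (machW_label (fun s a => labL_ne _ _ _ _) s q κ j a D c r)
  cv := fun h l j i u v _ _ hj => by
    have hj' : j ≤ n := by
      have : j ≤ fn F := hj
      rwa [fn_eq hF] at this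
    show (fcv F (l.map fun c => (c, h c)) ((2 ^ (20 * m)) ^ j) i (u / fμ F)).getD
      (v / fμ F) 0 = cvS ℓ μ B w0 c0 (2 ^ (20 * m)) (fvis F) h l j i u v
    unfold fcv cvS
    have h1 : (2 ^ (20 * m)) ^ j ≤ fU F :=
      (Nat.pow_le_pow_right (by positivity) hj').trans hF.K
    rw [fB_eq hF, fμ_eq hF, fℓ_eq hF, fw_eq hF, fc_eq hF, min_eq_left hF.mesh, min_eq_left h1]
  vLab := fun j a hj ha => by
    show a < fLab m F
    rw [fLab_eq hF]
    exact ha.2.lt hF.w00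

end

end Vale.Agent.P315.H207.M2
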