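import Vale.Agent.P315.H207.M2Loop
import Vale.Agent.P315.H486.Bridge2

/-!
P315, milestone 2, row M2-TSTRAT: the hypotheses `Fit` of the strategy from simple numerical
conditions; the feed as a list of twelve numbers, the seeds and the table.
-/

set_option autoImplicit false

namespace Vale.Agent.P315.H207.M2

open Vale.Agent.Lib.PolyTime Vale.Agent.P315.H155 Vale.Agent.P315.Q Vale.Agent.P315.H763
open Vale.Agent.P315.C Vale.Agent.P315.H804
open Vale.Agent.P315.H95 (cl bx ac clsPar wd)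

section

variable {m k : ℕ} {F : List ℕ} {n S μ ℓ w0 Kc kr B c0 : ℕ}

theorem sq4_le (a s : ℕ) (h : a ≤ s) : (a ^ 2 + 1) ^ 2 ≤ (s + 2) ^ 6 := by
  have h1 : a ^ 2 + 1 ≤ (s + 2) ^ 2 := by
    have h2 : a ^ 2 ≤ s ^ 2 := Nat.pow_le_pow_left h 2
    nlinarith
  calc (a ^ 2 + 1) ^ 2 ≤ ((s + 2) ^ 2) ^ 2 := Nat.pow_le_pow_left h1 2
    _ = (s + 2) ^ 4 := by ring
    _ ≤ (s + 2) ^ 6 := Nat.pow_le_pow_right (by omega) (by norm_num)

/-- **The strategy fits** if the table of the visible costs lies in the feed. -/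
theorem fit_of (e0 : F.getD 0 0 = n) (e1 : F.getD 1 0 = S) (e2 : F.getD 2 0 = μ)
    (e3 : F.getD 3 0 = ℓ) (e4 : F.getD 4 0 = w0) (e5 : F.getD 5 0 = Kc) (e6 : F.getD 6 0 = kr)
    (e7 : F.getD 7 0 = B) (e8 : F.getD 8 0 = c0) (hm : 0 < m) (hμ : 0 < μ) (hμw : μ ≤ w0)
    (hkr : kr ≤ Kc + 3) (hS : 2 ^ (400 * m * 2 ^ S + 20) ≤ (2 ^ (20 * m)) ^ n)
    (hk : 2 ^ k ≤ (2 ^ (20 * m)) ^ n) (hKc : 2 ^ (Kc + 4) ≤ (2 ^ (20 * m)) ^ n)
    (hB : 2 * wd (20 * m) w0 n kr ≤ B)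
    (hlen : (2 ^ (20 * m)) ^ n * ((B / μ + 1) * (ℓ / μ + 1)) ≤ F.length) :
    Fit m k F n S μ ℓ w0 Kc kr B c0 := by
  set K := (2 ^ (20 * m)) ^ n with hK
  set L := F.length with hL
  have hU : fU F = (L + 2) ^ 6 := rfl
  have hnS : 1 ≤ B / μ + 1 := Nat.le_add_left 1 _
  have hnE : 1 ≤ ℓ / μ + 1 := Nat.le_add_left 1 _
  have h1 : K * (B / μ + 1) ≤ L := by
    refine le_trans ?_ hlen
    exact Nat.mul_le_mul_left _ (Nat.le_mul_of_pos_right _ hnE)
  have h2 : K ≤ L := (Nat.le_mul_of_pos_right _ hnS).trans h1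
  have hmS : 1 ≤ m * 2 ^ S := Nat.mul_pos hm (by positivity)
  have hKbig : 2 ^ 20 ≤ K := by
    refine le_trans ?_ hS
    exact Nat.pow_le_pow_right (by norm_num) (by omega)
  have hnK : n < K := by
    calc n < 2 ^ n := Nat.lt_two_pow_self
      _ ≤ (2 ^ (20 * m)) ^ n := Nat.pow_le_pow_left
        (by calc 2 = 2 ^ 1 := rfl
              _ ≤ 2 ^ (20 * m) := Nat.pow_le_pow_right (by norm_num) (by omega)) n
  have he : 400 * m * 2 ^ S + 20 < K := lt_of_lt_of_le Nat.lt_two_pow_self hS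
  have e400 : 400 * m * 2 ^ S = 400 * (m * 2 ^ S) := by ring
  have hSS : S < 2 ^ S := Nat.lt_two_pow_self
  have hmSS : 2 ^ S ≤ m * 2 ^ S := Nat.le_mul_of_pos_left _ hm
  have hKcK : Kc + 4 < K := lt_of_lt_of_le Nat.lt_two_pow_self hKc
  have hkK : k < K := lt_of_lt_of_le Nat.lt_two_pow_self hk
  have hL6 : L + 2 ≤ (L + 2) ^ 6 := Nat.le_self_pow (by norm_num) _
  have hK2 : K * K + 6 * K + 20 ≤ (L + 2) ^ 6 := by
    calc K * K + 6 * K + 20 ≤ L * L + 6 * L + 20 := by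
          have := Nat.mul_le_mul h2 h2
          omega
      _ ≤ (L + 2) ^ 3 := by
          have : 1 ≤ L := by omega
          nlinarith [Nat.mul_le_mul h2 h2, Nat.zero_le (L ^ 3)]
      _ ≤ (L + 2) ^ 6 := Nat.pow_le_pow_right (by omega) (by norm_num)
  have h16 : 16 ^ S * m ^ 2 ≤ K := by
    have a1 : (16 : ℕ) ^ S = (2 ^ S) ^ 4 := by
      rw [← pow_mul, mul_comm, pow_mul]; norm_num
    have a2 : m ^ 2 ≤ m ^ 4 := Nat.pow_le_pow_right hm (by norm_num)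
    calc 16 ^ S * m ^ 2 ≤ (2 ^ S) ^ 4 * m ^ 4 := by rw [a1]; exact Nat.mul_le_mul_left _ a2
      _ = (m * 2 ^ S) ^ 4 := by ring
      _ ≤ (2 ^ (m * 2 ^ S)) ^ 4 := Nat.pow_le_pow_left Nat.lt_two_pow_self.le 4
      _ = 2 ^ (4 * (m * 2 ^ S)) := by rw [← pow_mul]; congr 1; ring
      _ ≤ 2 ^ (400 * m * 2 ^ S + 20) := Nat.pow_le_pow_right (by norm_num) (by omega)
      _ ≤ K := hS
  refine ⟨e0, e1, e2, e3, e4, e5, e6, e7, e8, hm, hμ, by omega, hkr, by omega, by omega,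
    by omega, by omega, ?_, ?_, ?_, ?_, ?_, ?_, ?_⟩
  · rw [hU]; omega
  · rw [hU]; omega
  · rw [hU]
    have h3 : 2 ^ k * n ≤ K * K := Nat.mul_le_mul hk hnK.le
    have h4 : famH m n S ≤ 3 * K := by
      unfold famH
      omega
    omega
  · rw [hU]
    have e270 : 270 * m * 2 ^ S = 270 * (m * 2 ^ S) := by ring
    omega
  · rw [hU]
    unfold labB
    refine sq4_le _ _ ?_
    -- the positions
    set x := 2 ^ kr * K with hx
    have hx1 : K ≤ x := Nat.le_mul_of_pos_left _ (by positivity)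
    have hBx : 2 * x ≤ B / μ := by
      rw [Nat.le_div_iff_mul_le hμ]
      refine le_trans ?_ hB
      unfold wd
      calc 2 * x * μ ≤ 2 * x * w0 := Nat.mul_le_mul_left _ hμw
        _ = 2 * (2 ^ kr * (w0 * K)) := by rw [hx]; ring
    have h5 : K * (2 * x + 1) ≤ L := (Nat.mul_le_mul_left _ (by omega)).trans h1
    have h6 : (n + 1) * (Kc + 3) ≤ K * K := Nat.mul_le_mul (by omega) (by omega)
    have h7 : K * K ≤ K * x := Nat.mul_le_mul_left _ hx1
    have h8 : 2 * x ≤ K * x := Nat.mul_le_mul_right _ (by omega)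
    have h9 : (n + 1) * (Kc + 3) = n * (Kc + 3) + (Kc + 3) := by ring
    have h10 : K * (2 * x + 1) = 2 * (K * x) + K := by ring
    omega
  · rw [hU]
    have h3 : 2 ^ (20 * m) ≤ K := by
      rcases Nat.eq_zero_or_pos n with h0 | h0
      · rw [hK, h0, pow_zero] at hKbig
        norm_num at hKbig
      · exact Nat.le_self_pow (by omega) _
    have h4 : 2 * 2 ^ (Kc + 3 + 20 * m) = 2 ^ (Kc + 4) * 2 ^ (20 * m) := by
      rw [← pow_add, ← pow_succ']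
      congr 1
      ring
    rw [h4]
    have h5 := Nat.mul_le_mul hKc h3
    omega
  · rw [hU]
    have h3 : B / μ + 1 ≤ K * (B / μ + 1) := Nat.le_mul_of_pos_left _ (by omega)
    omega

end

/-! ### The feed as a list -/

/-- The feed: twelve numbers, the seeds, the table. -/
def feed2 (n S μ ℓ w0 Kc kr B c0 pe D N : ℕ) (cs VIS : List ℕ) : List ℕ :=
  ([n, S, μ, ℓ, w0, Kc, kr, B, c0, pe, D, N] ++ cs) ++ VIS

section

variable {m k n S μ ℓ w0 Kc kr B c0 pe D N : ℕ} {cs VIS : List ℕ}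

theorem length_feed2 : (feed2 n S μ ℓ w0 Kc kr B c0 pe D N cs VIS).length =
    12 + cs.length + VIS.length := by
  unfold feed2
  rw [List.length_append, List.length_append]
  rfl

theorem sd_feed2 {i : ℕ} (hi : i < cs.length) :
    sd (feed2 n S μ ℓ w0 Kc kr B c0 pe D N cs VIS) i = cs.getD i 0 := by
  unfold sd feed2
  rw [List.getD_append _ _ _ _ (by rw [List.length_append]; exact Nat.add_lt_add_left hi 12),
    List.getD_append_right _ _ _ _ (by exact Nat.le_add_right 12 i)]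
  congr 1
  exact Nat.add_sub_cancel_left ..

theorem vs_feed2 (hN : cs.length = N) (i : ℕ) :
    vs (feed2 n S μ ℓ w0 Kc kr B c0 pe D N cs VIS) i = VIS.getD i 0 := by
  have h1 : fNs (feed2 n S μ ℓ w0 Kc kr B c0 pe D N cs VIS) = N := rfl
  have h2 : ([n, S, μ, ℓ, w0, Kc, kr, B, c0, pe, D, N] ++ cs).length = 12 + N := by
    rw [List.length_append, hN]
    rfl
  unfold vs
  rw [h1]
  unfold feed2
  rw [List.getD_append_right _ _ _ _ (by rw [h2]; exact Nat.le_add_right _ _), h2,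
    Nat.add_sub_cancel_left]

/-- The visible costs in the feed. -/
theorem fvis_feed2 (hN : cs.length = N) (i p q : ℕ) :
    fvis (feed2 n S μ ℓ w0 Kc kr B c0 pe D N cs VIS) i p q =
      VIS.getD ((i * (B / μ + 1) + p / μ) * (ℓ / μ + 1) + (q + ℓ / 2 - p) / μ) 0 := by
  unfold fvis
  rw [vs_feed2 hN]
  rfl

/-- The random data in the feed. -/
theorem rndF_feed2 (h : H659.nSeed n (2 ^ (20 * m)) (S + 1) (2 ^ (4 * m * 2 ^ S)) ≤ cs.length) :
    rndF m k n S ℓ (feed2 n S μ ℓ w0 Kc kr B c0 pe D N cs VIS) =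
      H659.rndOf n (2 ^ (20 * m)) (S + 1) (2 ^ (4 * m * 2 ^ S)) (2 ^ k - 1)
        (fun r => cs.getD r 0 % 2 ^ (k + 270 * m * 2 ^ S + Nat.log 2 ℓ + 1)) := by
  unfold rndF
  refine H486.rndOf_congr fun i hi => ?_
  rw [sd_feed2 (by omega)]

/-- **The strategy fits.** -/
theorem fit_feed2 (hm : 0 < m) (hμ : 0 < μ) (hμw : μ ≤ w0)
    (hkr : kr ≤ Kc + 3) (hS : 2 ^ (400 * m * 2 ^ S + 20) ≤ (2 ^ (20 * m)) ^ n)
    (hk : 2 ^ k ≤ (2 ^ (20 * m)) ^ n) (hKc : 2 ^ (Kc + 4) ≤ (2 ^ (20 * m)) ^ n)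
    (hB : 2 * wd (20 * m) w0 n kr ≤ B)
    (hlen : (2 ^ (20 * m)) ^ n * ((B / μ + 1) * (ℓ / μ + 1)) ≤ VIS.length) :
    Fit m k (feed2 n S μ ℓ w0 Kc kr B c0 pe D N cs VIS) n S μ ℓ w0 Kc kr B c0 :=
  fit_of rfl rfl rfl rfl rfl rfl rfl rfl rfl hm hμ hμw hkr hS hk hKc hB
    (hlen.trans (by rw [length_feed2]; omega))

end

end Vale.Agent.P315.H207.M2
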