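import Vale.Agent.P315.C.Alg
import Vale.Agent.P315.H207.Causal

/-! The read sets of C/Alg.lean as causal lists, for arbitrary answers.

Natural indices: `b : ℕ` stands for the index `b - H - 1 : ℤ`, so `b = 0` = nothing is read.
`RN S h j i a b` = list of the cells read in the evaluation of the region `(j, i, a)`, if the answers
are `h`: the lists of the children, then those of the units seen by the machines (history), then
those of the units on the lanes; first occurrences only. -/

set_option autoImplicit false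

namespace Vale.Agent.P315.H207

open Vale.Agent.P315.C

/-- A cell: row and label. -/
abbrev Cell := ℕ × ℕ

/-- Lists of cells: level, slab, label, natural index. -/
abbrev LTab := ℕ → ℕ → ℕ → ℕ → List Cell

/-- Data of the strategy: the parameters, machines, random data of C/Alg.lean, the labels of the
children and of the units as lists, and the evaluation of a certified cost from the answers. -/
structure Strat (A : Type) where
  P : Par
  mc : Mach
  ω : Rnd
  /-- labels of the children of a region of level `j` with label `a` -/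
  kidsL : ℕ → ℕ → List ℕ
  /-- labels of the units in unit row `m` seen by the machines of scale `s` in a region of level
  `j` with label `a` -/
  labs : (j s a m : ℕ) → List ℕ
  /-- certified cost: answers, read cells, level, slab, start, end -/
  cv : (Cell → A) → List Cell → ℕ → ℕ → ℕ → ℕ → ℕ

variable {A : Type}

namespace Strat

/-- Natural index of a unit in the history of round `κ`. -/
def un (S : Strat A) (j a s κ m x : ℕ) : ℕ := κ + 1 - (Xi S.P S.ω j (2 ^ s) m + S.P.pen j (2 ^ s) a x)

/-- Natural index of a unit on a lane of round `κ`. -/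
def un2 (S : Strat A) (j a s κ m x : ℕ) : ℕ :=
  κ + 1 + 2 ^ s - (Xi S.P S.ω j (2 ^ s) m + S.P.pen j (2 ^ s) a x)

/-- History of the unit costs. -/
def histN (S : Strat A) (h : Cell → A) (R : LTab) (j i a s : ℕ) : ℕ → ℕ → ℕ → ℕ → ℕ → ℕ :=
  fun κ m x u v => S.cv h (R (j - 2 ^ s) (i * S.P.M ^ 2 ^ s + m) x (S.un j a s κ m x))
    (j - 2 ^ s) (i * S.P.M ^ 2 ^ s + m) u v

/-- The lane of machine `q` of scale `s` in round `κ`. -/
def laneN (S : Strat A) (h : Cell → A) (R : LTab) (j i a s q κ : ℕ) : ℕ → ℕ × ℕ × ℕ :=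
  S.mc.lane s q κ j a (S.histN h R j i a s) (S.ω.coin j s)

/-- The scales of the machines which run at level `j`. -/
def scales (S : Strat A) (j : ℕ) : List ℕ := (List.range S.P.S).filter fun s => decide (2 ^ s ∣ j)

/-- The lists of the children. -/
def baseL (S : Strat A) (R : LTab) (j i a b : ℕ) : List Cell :=
  (List.range S.P.M).flatMap fun m => (S.kidsL j a).flatMap fun a' =>
    R (j - 1) (i * S.P.M + m) a' (b - (S.ω.xi j m + S.P.pen j 1 a a'))

/-- The lists of the units in the history. -/
def seenL (S : Strat A) (R : LTab) (j i a b : ℕ) : List Cell :=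
  (S.scales j).flatMap fun s => (List.range b).flatMap fun κ =>
    (List.range (S.P.M ^ 2 ^ s)).flatMap fun m => (S.labs j s a m).flatMap fun x =>
      R (j - 2 ^ s) (i * S.P.M ^ 2 ^ s + m) x (S.un j a s κ m x)

/-- The lists of the units on the lanes. -/
def lanesL (S : Strat A) (h : Cell → A) (R : LTab) (j i a b : ℕ) : List Cell :=
  (S.scales j).flatMap fun s => (List.range (S.mc.cnt s)).flatMap fun q =>
    (List.range b).flatMap fun κ => (List.range (S.P.M ^ 2 ^ s)).flatMap fun m =>
      R (j - 2 ^ s) (i * S.P.M ^ 2 ^ s + m) (S.laneN h R j i a s q κ m).1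
        (S.un2 j a s κ m (S.laneN h R j i a s q κ m).1)

/-- One level. -/
def stepN (S : Strat A) (h : Cell → A) (R : LTab) (j i a b : ℕ) : List Cell :=
  nub (S.baseL R j i a b ++ (S.seenL R j i a b ++ S.lanesL h R j i a b))

/-- The list of the cells read in the evaluation of a region. -/
def RN (S : Strat A) (h : Cell → A) : ℕ → ℕ → ℕ → ℕ → List Cell
  | 0 => fun i a b => if b ≤ S.P.H then [] else [(i, a)]
  | j + 1 => fun i a b =>
      S.stepN h (fun l => if _h : l ≤ j then S.RN h l else fun _ _ _ => []) (j + 1) i a b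
termination_by j => j
decreasing_by omega

/-- Locality: the certified cost depends only on the answers in the list; a machine looks only at
the rounds up to the present one, at the listed labels, and at the positions in `pos`. -/
structure Loc (S : Strat A) (pos : ℕ → Prop) : Prop where
  cv : ∀ (h h' : Cell → A) (l : List Cell), (∀ c ∈ l, h c = h' c) → S.cv h l = S.cv h' l
  lane : ∀ s q κ j a (D D' : ℕ → ℕ → ℕ → ℕ → ℕ → ℕ) (coin : ℕ → ℕ), s < S.P.S → 2 ^ s ∣ j → 0 < j →
    (∀ κ' ≤ κ, ∀ m < S.P.M ^ 2 ^ s, ∀ x ∈ S.labs j s a m, ∀ u v, pos u → pos v →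
      D κ' m x u v = D' κ' m x u v) →
    ∀ m < S.P.M ^ 2 ^ s, S.mc.lane s q κ j a D coin m = S.mc.lane s q κ j a D' coin m

theorem mem_scales {S : Strat A} {j s : ℕ} : s ∈ S.scales j ↔ s < S.P.S ∧ 2 ^ s ∣ j := by
  unfold scales
  simp

theorem pow_pos' {s : ℕ} : 0 < 2 ^ s := pow_pos (by norm_num) s

/-- The step on two oracles and two families of lists. -/
theorem stepN_ok {S : Strat A} {pos : ℕ → Prop} (hS : S.Loc pos) {h h' : Cell → A} {R R' : LTab}
    {j : ℕ} (hj : 0 < j) (hR : ∀ l < j, ∀ i a b, Ok h h' (R l i a b) (R' l i a b)) (i a b : ℕ) :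
    Ok h h' (S.stepN h R j i a b) (S.stepN h' R' j i a b) := by
  unfold stepN
  apply Ok.nub
  apply Ok.append
  · unfold baseL
    exact Ok.flatMap fun m _ => Ok.flatMap fun a' _ => hR _ (by omega) _ _ _
  intro _ _
  apply Ok.append
  · unfold seenL
    exact Ok.flatMap fun s _ => Ok.flatMap fun κ _ => Ok.flatMap fun m _ => Ok.flatMap fun x _ =>
      hR _ (by have := pow_pos' (s := s); omega) _ _ _
  intro hseen hag
  unfold lanesL
  refine Ok.flatMap fun s hs => Ok.flatMap fun q _ => Ok.flatMap fun κ hκ => Ok.flatMap fun m hm => ?_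
  have hlane : S.laneN h R j i a s q κ m = S.laneN h' R' j i a s q κ m := by
    unfold laneN
    obtain ⟨hs1, hs2⟩ := mem_scales.1 hs
    refine hS.lane s q κ j a _ _ _ hs1 hs2 hj ?_ m (List.mem_range.1 hm)
    intro κ' hκ' m' hm' x hx u v _ _
    unfold histN
    have hsub : ∀ c ∈ R (j - 2 ^ s) (i * S.P.M ^ 2 ^ s + m') x (S.un j a s κ' m' x),
        h c = h' c := by
      intro c hc
      apply hag
      unfold seenL
      simp only [List.mem_flatMap, List.mem_range]
      exact ⟨s, hs, κ', by have := List.mem_range.1 hκ; omega, m', hm', x, hx, hc⟩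
    have heq := (hR (j - 2 ^ s) (by have := pow_pos' (s := s); omega)
      (i * S.P.M ^ 2 ^ s + m') x (S.un j a s κ' m' x)).eq_of_agree hsub
    rw [← heq, hS.cv h h' _ hsub]
  rw [hlane]
  exact hR _ (by have := pow_pos' (s := s); omega) _ _ _

theorem stepN_congr {S : Strat A} {pos : ℕ → Prop} (hS : S.Loc pos) {h : Cell → A} {R R' : LTab}
    {j : ℕ} (hj : 0 < j) (hR : ∀ l < j, R l = R' l) (i a b : ℕ) :
    S.stepN h R j i a b = S.stepN h R' j i a b :=
  (stepN_ok hS hj (h := h) (h' := h) (fun l hl i a b => Or.inl (by rw [hR l hl])) i a b).eq_of_agree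
    fun _ _ => rfl

theorem RN_zero (S : Strat A) (h : Cell → A) (i a b : ℕ) :
    S.RN h 0 i a b = if b ≤ S.P.H then [] else [(i, a)] := by
  rw [RN]

theorem RN_succ {S : Strat A} {pos : ℕ → Prop} (hS : S.Loc pos) (h : Cell → A) (j i a b : ℕ) :
    S.RN h (j + 1) i a b = S.stepN h (S.RN h) (j + 1) i a b := by
  rw [RN]
  refine stepN_congr hS (by omega) ?_ i a b
  intro l hl
  rw [dif_pos (by omega)]

/-- The lists are causal. -/
theorem causal_RN {S : Strat A} {pos : ℕ → Prop} (hS : S.Loc pos) (j : ℕ) :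
    ∀ i a b, Causal fun h => S.RN h j i a b := by
  induction j using Nat.strong_induction_on with
  | _ j ih =>
    intro i a b h h'
    rcases j with _ | j
    · simp only [RN_zero]
      exact Or.inl rfl
    · simp only [RN_succ hS]
      exact stepN_ok hS (by omega) (fun l hl i a b => ih l hl i a b h h') i a b

theorem nodup_RN {S : Strat A} {pos : ℕ → Prop} (hS : S.Loc pos) (h : Cell → A) (j i a b : ℕ) :
    (S.RN h j i a b).Nodup := by
  rcases j with _ | j
  · rw [RN_zero]; split_ifs <;> simp
  · rw [RN_succ hS]; exact nodup_nub _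

/-! ### Nothing is read at the index `0` -/

theorem RN_index_zero {S : Strat A} {pos : ℕ → Prop} (hS : S.Loc pos) (h : Cell → A) (j : ℕ) :
    ∀ i a, S.RN h j i a 0 = [] := by
  induction j with
  | zero => intro i a; rw [RN_zero]; simp
  | succ j ih =>
    intro i a
    rw [RN_succ hS, List.eq_nil_iff_forall_not_mem]
    intro c
    rw [stepN, mem_nub]
    simp [baseL, seenL, lanesL, ih]

theorem rd_neg (P : Par) (mc : Mach) (ω : Rnd) (vis hid : Leaf) (j : ℕ) :
    ∀ i a (z : ℤ), z < -P.H → rd P mc ω vis hid j i a z = ∅ := by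
  induction j with
  | zero =>
    intro i a z hz
    rw [rd_zero, if_pos (by omega)]
  | succ j ih =>
    intro i a z hz
    rw [rd_succ]
    unfold stepRead
    have h1 : (z + P.H + 1).toNat = 0 := by omega
    rw [h1]
    simp only [Finset.range_zero, Finset.biUnion_empty, Finset.union_eq_empty]
    constructor
    · ext c
      simp only [Finset.mem_biUnion, Finset.notMem_empty, iff_false, not_exists, not_and]
      intro m _ a' _
      rw [show j + 1 - 1 = j from rfl, ih _ _ _ (by omega)]
      simp
    · ext c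
      simp

/-! ### The lists are the read sets -/

/-- The answers are those of `hid`, the lists of labels are those of `P`, and the units in the
history of a valid region lie in its read set. `V j a` = valid labels of level `j`. -/
structure Faithful (S : Strat A) (pos : ℕ → Prop) (V : ℕ → ℕ → Prop) (vis hid : Leaf)
    (h : Cell → A) : Prop where
  loc : S.Loc pos
  cv : ∀ (l : List Cell) j i u v, pos u → pos v →
    S.cv h l j i u v = cval S.P vis hid l.toFinset j i u v
  kids : ∀ j a, (S.kidsL j a).toFinset = S.P.kids j a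
  vkids : ∀ j a, 0 < j → V j a → ∀ a' ∈ S.P.kids j a, V (j - 1) a'
  vlabs : ∀ j a s m, 0 < j → s < S.P.S → 2 ^ s ∣ j → V j a → m < S.P.M ^ 2 ^ s →
    ∀ x ∈ S.labs j s a m, V (j - 2 ^ s) x
  vlane : ∀ s q κ j a D coin m, 0 < j → s < S.P.S → 2 ^ s ∣ j → V j a → q < S.mc.cnt s →
    m < S.P.M ^ 2 ^ s → V (j - 2 ^ s) (S.mc.lane s q κ j a D coin m).1
  nest : ∀ j i a (z : ℤ) s κ m x, 0 < j → s < S.P.S → 2 ^ s ∣ j → V j a →
    κ < (z + S.P.H + 1).toNat → m < S.P.M ^ 2 ^ s → x ∈ S.labs j s a m →
    rd S.P S.mc S.ω vis hid (j - 2 ^ s) (i * S.P.M ^ 2 ^ s + m) x (uidx S.P S.ω j a s κ m x) ⊆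
      rd S.P S.mc S.ω vis hid j i a z

theorem RN_toFinset {S : Strat A} {pos : ℕ → Prop} {V : ℕ → ℕ → Prop} {vis hid : Leaf}
    {h : Cell → A} (hF : S.Faithful pos V vis hid h) (j : ℕ) :
    ∀ i a (b : ℕ), V j a → (S.RN h j i a b).toFinset =
      rd S.P S.mc S.ω vis hid j i a ((b : ℤ) - S.P.H - 1) := by
  induction j using Nat.strong_induction_on with
  | _ j ih =>
    intro i a b hV
    have hloc := hF.loc
    -- truncated subtraction
    have hsub : ∀ l < j, ∀ i' x (t t' : ℕ), V l x →
        (S.RN h l i' x (t - t')).toFinset =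
          rd S.P S.mc S.ω vis hid l i' x ((t : ℤ) - S.P.H - 1 - t') := by
      intro l hl i' x t t' hVx
      by_cases htt : t' ≤ t
      · rw [ih l hl i' x (t - t') hVx]
        rw [show (((t - t' : ℕ) : ℤ) - S.P.H - 1) = (t : ℤ) - S.P.H - 1 - t' by omega]
      · rw [show t - t' = 0 by omega, RN_index_zero hloc, rd_neg _ _ _ _ _ _ _ _ _ (by omega)]
        simp
    rcases j with _ | j
    · rw [RN_zero, rd_zero]
      by_cases hb : b ≤ S.P.H
      · rw [if_pos hb, if_pos (by omega)]; simp
      · rw [if_neg hb, if_neg (by omega)]; simp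
    · have hpp : ∀ s : ℕ, 1 ≤ 2 ^ s := fun s => Nat.one_le_two_pow
      have hun : ∀ s κ m x, V (j + 1 - 2 ^ s) x →
          (S.RN h (j + 1 - 2 ^ s) (i * S.P.M ^ 2 ^ s + m) x (S.un (j + 1) a s κ m x)).toFinset =
            rd S.P S.mc S.ω vis hid (j + 1 - 2 ^ s) (i * S.P.M ^ 2 ^ s + m) x
              (uidx S.P S.ω (j + 1) a s κ m x) := by
        intro s κ m x hVx
        have := hpp s
        unfold un uidx
        rw [hsub _ (by omega) _ _ _ _ hVx]
        rw [show (((κ + 1 : ℕ) : ℤ) - S.P.H - 1 -
            ((Xi S.P S.ω (j + 1) (2 ^ s) m + S.P.pen (j + 1) (2 ^ s) a x : ℕ) : ℤ)) =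
          (κ : ℤ) - S.P.H - Xi S.P S.ω (j + 1) (2 ^ s) m - S.P.pen (j + 1) (2 ^ s) a x by
            push_cast; ring]
      have hun2 : ∀ s κ m x, V (j + 1 - 2 ^ s) x →
          (S.RN h (j + 1 - 2 ^ s) (i * S.P.M ^ 2 ^ s + m) x (S.un2 (j + 1) a s κ m x)).toFinset =
            rd S.P S.mc S.ω vis hid (j + 1 - 2 ^ s) (i * S.P.M ^ 2 ^ s + m) x
              (uidx S.P S.ω (j + 1) a s κ m x + 2 ^ s) := by
        intro s κ m x hVx
        have := hpp s
        unfold un2 uidx
        rw [hsub _ (by omega) _ _ _ _ hVx]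
        rw [show (((κ + 1 + 2 ^ s : ℕ) : ℤ) - S.P.H - 1 -
            ((Xi S.P S.ω (j + 1) (2 ^ s) m + S.P.pen (j + 1) (2 ^ s) a x : ℕ) : ℤ)) =
          (κ : ℤ) - S.P.H - Xi S.P S.ω (j + 1) (2 ^ s) m - S.P.pen (j + 1) (2 ^ s) a x + 2 ^ s by
            push_cast; ring]
      have hlane : ∀ s q κ m, s < S.P.S → 2 ^ s ∣ j + 1 → m < S.P.M ^ 2 ^ s →
          S.laneN h (S.RN h) (j + 1) i a s q κ m =
            laneOf S.P S.mc S.ω vis hid (rd S.P S.mc S.ω vis hid) (j + 1) i a s q κ m := by
        intro s q κ m hs hd hm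
        unfold laneN laneOf
        refine hloc.lane s q κ (j + 1) a _ _ _ hs hd (by omega) ?_ m hm
        intro κ' _ m' hm' x hx u v hu hv
        unfold histN hist
        rw [hF.cv _ _ _ _ _ hu hv, hun s κ' m' x (hF.vlabs _ _ _ _ (by omega) hs hd hV hm' x hx)]
      have hbase : ∀ c, c ∈ S.baseL (S.RN h) (j + 1) i a b ↔
          c ∈ (Finset.range S.P.M).biUnion fun m => (S.P.kids (j + 1) a).biUnion fun a' =>
            rd S.P S.mc S.ω vis hid (j + 1 - 1) (i * S.P.M + m) a'
              ((b : ℤ) - S.P.H - 1 - S.ω.xi (j + 1) m - S.P.pen (j + 1) 1 a a') := by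
        intro c
        unfold baseL
        simp only [List.mem_flatMap, List.mem_range, Finset.mem_biUnion, Finset.mem_range]
        refine exists_congr fun m => and_congr_right fun _ => ?_
        have hk : ∀ a', a' ∈ S.kidsL (j + 1) a ↔ a' ∈ S.P.kids (j + 1) a := fun a' => by
          rw [← hF.kids, List.mem_toFinset]
        refine exists_congr fun a' => ?_
        rw [hk]
        refine and_congr_right fun ha' => ?_
        rw [← List.mem_toFinset,
          hsub (j + 1 - 1) (by omega) _ _ _ _ (hF.vkids _ _ (by omega) hV a' ha')]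
        rw [show ((b : ℤ) - S.P.H - 1 - ((S.ω.xi (j + 1) m + S.P.pen (j + 1) 1 a a' : ℕ) : ℤ)) =
          (b : ℤ) - S.P.H - 1 - S.ω.xi (j + 1) m - S.P.pen (j + 1) 1 a a' by push_cast; ring]
      have hlanes : ∀ c, c ∈ S.lanesL h (S.RN h) (j + 1) i a b ↔
          c ∈ ((Finset.range S.P.S).filter fun s => 2 ^ s ∣ j + 1).biUnion fun s =>
            (Finset.range (S.mc.cnt s)).biUnion fun q =>
              (Finset.range (((b : ℤ) - S.P.H - 1) + S.P.H + 1).toNat).biUnion fun κ =>
                (Finset.range (S.P.M ^ 2 ^ s)).biUnion fun m =>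
            rd S.P S.mc S.ω vis hid (j + 1 - 2 ^ s) (i * S.P.M ^ 2 ^ s + m)
              (laneOf S.P S.mc S.ω vis hid (rd S.P S.mc S.ω vis hid) (j + 1) i a s q κ m).1
              (uidx S.P S.ω (j + 1) a s κ m
                (laneOf S.P S.mc S.ω vis hid (rd S.P S.mc S.ω vis hid) (j + 1) i a s q κ m).1
                + 2 ^ s) := by
        intro c
        unfold lanesL
        rw [show ((((b : ℤ) - S.P.H - 1) + S.P.H + 1).toNat) = b by omega]
        simp only [List.mem_flatMap, List.mem_range, Finset.mem_biUnion, Finset.mem_range,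
          mem_scales, Finset.mem_filter]
        refine exists_congr fun s => and_congr_right fun hs => ?_
        refine exists_congr fun q => and_congr_right fun hq => ?_
        refine exists_congr fun κ => and_congr_right fun _ => ?_
        refine exists_congr fun m => and_congr_right fun hm => ?_
        rw [← List.mem_toFinset, hun2 s κ m (S.laneN h (S.RN h) (j + 1) i a s q κ m).1
          (hF.vlane _ _ _ _ _ _ _ _ (by omega) hs.1 hs.2 hV hq hm), hlane s q κ m hs.1 hs.2 hm]
      have hseen : ∀ c, c ∈ S.seenL (S.RN h) (j + 1) i a b →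
          c ∈ rd S.P S.mc S.ω vis hid (j + 1) i a ((b : ℤ) - S.P.H - 1) := by
        intro c hc
        unfold seenL at hc
        simp only [List.mem_flatMap, List.mem_range, mem_scales] at hc
        obtain ⟨s, hs, κ, hκ, m, hm, x, hx, hc⟩ := hc
        refine hF.nest (j + 1) i a ((b : ℤ) - S.P.H - 1) s κ m x (by omega) hs.1 hs.2 hV
          (by omega) hm hx ?_
        rw [← hun s κ m x (hF.vlabs _ _ _ _ (by omega) hs.1 hs.2 hV hm x hx), List.mem_toFinset]
        exact hc
      ext c
      rw [RN_succ hloc, stepN, List.mem_toFinset, mem_nub, List.mem_append, List.mem_append]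
      have hrd : c ∈ rd S.P S.mc S.ω vis hid (j + 1) i a ((b : ℤ) - S.P.H - 1) ↔
          c ∈ S.baseL (S.RN h) (j + 1) i a b ∨ c ∈ S.lanesL h (S.RN h) (j + 1) i a b := by
        rw [rd_succ]
        unfold stepRead
        rw [Finset.mem_union, hbase, hlanes]
      constructor
      · rintro (h1 | h1 | h1)
        · exact hrd.2 (Or.inl h1)
        · exact hseen c h1
        · exact hrd.2 (Or.inr h1)
      · intro h1
        rcases hrd.1 h1 with h2 | h2
        · exact Or.inl h2
        · exact Or.inr (Or.inr h2)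

end Strat

end Vale.Agent.P315.H207
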