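import Vale.Agent.P315.H155.Auto
import Vale.Agent.P315.H207.RdL

/-! The lists `RN` of RdL.lean as bottom-up tables, with the polynomial time proof.

`TPar` = the data used by one step, as plain functions (powers `2 ^ s`, `M ^ 2 ^ s`, numbers of
machines, sums of jitters and penalties are given by functions which are correct for the scales in
use and polynomially bounded everywhere). `tabs T I Am n` = the tables of the levels `0, …, n`. -/

set_option autoImplicit false

namespace Vale.Agent.P315.H207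

open Vale.Agent.Lib.PolyTime Vale.Agent.P315.H155 Vale.Agent.P315.C

/-- Table of one level: slab, label, index. -/
abbrev LevT := List (List (List (List Cell)))

/-- Tables of the levels. -/
abbrev Tabs := List LevT

/-- Look up an entry. -/
def lookT (t : Tabs) : LTab := fun l i a b => (((t.getD l []).getD i []).getD a []).getD b []

/-- Data of one step. -/
structure TPar where
  M : ℕ
  H : ℕ
  /-- bound of the indices -/
  NB : ℕ
  /-- the scales of the machines at level `j` -/
  sc : ℕ → List ℕ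
  /-- `2 ^ s` -/
  p2 : ℕ → ℕ
  /-- `M ^ 2 ^ s` -/
  pw : ℕ → ℕ
  /-- number of machines -/
  cn : ℕ → ℕ
  kids : ℕ → ℕ → List ℕ
  /-- `j s a m` -/
  labs : ℕ → ℕ → ℕ → ℕ → List ℕ
  /-- shift of the index of a child: `j m a a'` -/
  sft : ℕ → ℕ → ℕ → ℕ → ℕ
  /-- shift of the index of a unit: `j s m a x` -/
  usft : ℕ → ℕ → ℕ → ℕ → ℕ → ℕ
  /-- label of the piece `m` of a lane: lists of the lower levels, `j i a s q κ m` -/
  lab : LTab → ℕ → ℕ → ℕ → ℕ → ℕ → ℕ → ℕ → ℕ

namespace TPar

/-- Lists of the children. -/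
def base (T : TPar) (R : LTab) (j i a b : ℕ) : List Cell :=
  (List.range T.M).flatMap fun m => (T.kids j a).flatMap fun a' =>
    R (j - 1) (i * T.M + m) a' (b - T.sft j m a a')

/-- Lists of the units in the history. -/
def seen (T : TPar) (R : LTab) (j i a b : ℕ) : List Cell :=
  (T.sc j).flatMap fun s => (List.range (min b T.NB)).flatMap fun κ =>
    (List.range (T.pw s)).flatMap fun m => (T.labs j s a m).flatMap fun x =>
      R (j - T.p2 s) (i * T.pw s + m) x (κ + 1 - T.usft j s m a x)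

/-- Lists of the units on the lanes. -/
def lanes (T : TPar) (R : LTab) (j i a b : ℕ) : List Cell :=
  (T.sc j).flatMap fun s => (List.range (T.cn s)).flatMap fun q =>
    (List.range (min b T.NB)).flatMap fun κ => (List.range (T.pw s)).flatMap fun m =>
      R (j - T.p2 s) (i * T.pw s + m) (T.lab R j i a s q κ m)
        (κ + 1 + T.p2 s - T.usft j s m a (T.lab R j i a s q κ m))

/-- One step. -/
def step (T : TPar) (R : LTab) (j i a b : ℕ) : List Cell :=
  nub (T.base R j i a b ++ (T.seen R j i a b ++ T.lanes R j i a b))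

/-- Table of level `0`. -/
def lev0 (T : TPar) (I Am : ℕ) : LevT :=
  (List.range I).map fun i => (List.range Am).map fun a => (List.range T.NB).map fun b =>
    if b ≤ T.H then [] else [(i, a)]

/-- Table of the next level. -/
def lev (T : TPar) (I Am : ℕ) (t : Tabs) (j : ℕ) : LevT :=
  (List.range I).map fun i => (List.range Am).map fun a => (List.range T.NB).map fun b =>
    T.step (lookT t) j i a b

/-- The tables of the levels `0, …, n`. -/
def tabs (T : TPar) (I Am n : ℕ) : Tabs :=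
  Nat.rec (motive := fun _ => Tabs) [T.lev0 I Am] (fun j t => t ++ [T.lev I Am t (j + 1)]) n

theorem tabs_zero (T : TPar) (I Am : ℕ) : T.tabs I Am 0 = [T.lev0 I Am] := rfl

theorem tabs_succ (T : TPar) (I Am n : ℕ) :
    T.tabs I Am (n + 1) = T.tabs I Am n ++ [T.lev I Am (T.tabs I Am n) (n + 1)] := rfl

theorem length_tabs (T : TPar) (I Am n : ℕ) : (T.tabs I Am n).length = n + 1 := by
  induction n with
  | zero => rfl
  | succ n ih => rw [tabs_succ, List.length_append, ih]; rfl

theorem getD_tabs (T : TPar) (I Am : ℕ) {n l : ℕ} (h : l ≤ n) :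
    (T.tabs I Am n).getD l [] = (T.tabs I Am l).getD l [] := by
  induction n with
  | zero => rw [show l = 0 by omega]
  | succ n ih =>
    rcases Nat.lt_or_ge n l with h1 | h1
    · rw [show l = n + 1 by omega]
    · rw [← ih h1, tabs_succ, List.getD_append _ _ _ _ (by rw [length_tabs]; omega)]

theorem getD_tabs_succ (T : TPar) (I Am n : ℕ) :
    (T.tabs I Am (n + 1)).getD (n + 1) [] = T.lev I Am (T.tabs I Am n) (n + 1) := by
  rw [tabs_succ, List.getD_append_right _ _ _ _ (by rw [length_tabs])]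
  rw [length_tabs]
  simp

end TPar

theorem getD_map_range {β : Type*} (f : ℕ → β) {n k : ℕ} (d : β) (h : k < n) :
    ((List.range n).map f).getD k d = f k := by
  rw [List.getD_eq_getElem?_getD, List.getElem?_map, List.getElem?_range h]
  rfl

theorem getD_map_range_ge {β : Type*} (f : ℕ → β) {n k : ℕ} (d : β) (h : n ≤ k) :
    ((List.range n).map f).getD k d = d := by
  rw [List.getD_eq_default]
  simpa using h

namespace TPar

theorem lookT_zero (T : TPar) (I Am : ℕ) {n i a b : ℕ} (hi : i < I) (ha : a < Am)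
    (hb : b < T.NB) : lookT (T.tabs I Am n) 0 i a b = if b ≤ T.H then [] else [(i, a)] := by
  unfold lookT
  rw [getD_tabs T I Am (Nat.zero_le n), tabs_zero]
  simp only [List.getD_cons_zero, lev0]
  rw [getD_map_range _ _ hi, getD_map_range _ _ ha, getD_map_range _ _ hb]

theorem lookT_succ (T : TPar) (I Am : ℕ) {n j i a b : ℕ} (hj : j < n) (hi : i < I) (ha : a < Am)
    (hb : b < T.NB) : lookT (T.tabs I Am n) (j + 1) i a b =
      T.step (lookT (T.tabs I Am j)) (j + 1) i a b := by
  unfold lookT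
  rw [getD_tabs T I Am (show j + 1 ≤ n by omega), getD_tabs_succ]
  simp only [lev]
  rw [getD_map_range _ _ hi, getD_map_range _ _ ha, getD_map_range _ _ hb]
  rfl

theorem lookT_mono (T : TPar) (I Am : ℕ) {n l : ℕ} (h : l ≤ n) :
    lookT (T.tabs I Am n) l = lookT (T.tabs I Am l) l := by
  funext i a b
  unfold lookT
  rw [getD_tabs T I Am h]

end TPar

/-! ### Equality with `RN` -/

/-- The data of the table are those of the strategy, at the levels `≤ n` with valid labels `V`. -/
structure TAgree {A : Type} (S : Strat A) (h : Cell → A) (T : TPar) (n I Am : ℕ)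
    (V : ℕ → ℕ → Prop) : Prop where
  M : T.M = S.P.M
  Mpos : 0 < S.P.M
  H : T.H = S.P.H
  sc : ∀ j, 0 < j → j ≤ n → T.sc j = S.scales j
  p2 : ∀ j s, 0 < j → j ≤ n → s ∈ S.scales j → T.p2 s = 2 ^ s
  pw : ∀ j s, 0 < j → j ≤ n → s ∈ S.scales j → T.pw s = S.P.M ^ 2 ^ s
  cn : ∀ j s, 0 < j → j ≤ n → s ∈ S.scales j → T.cn s = S.mc.cnt s
  kids : ∀ j a, 0 < j → j ≤ n → V j a → T.kids j a = S.kidsL j a
  labs : ∀ j s a m, 0 < j → j ≤ n → s ∈ S.scales j → V j a → m < S.P.M ^ 2 ^ s →
    T.labs j s a m = S.labs j s a m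
  sft : ∀ j m a a', 0 < j → j ≤ n → V j a → m < S.P.M → a' ∈ S.kidsL j a →
    T.sft j m a a' = S.ω.xi j m + S.P.pen j 1 a a'
  usft : ∀ j s m a x, 0 < j → j ≤ n → s ∈ S.scales j → V j a → m < S.P.M ^ 2 ^ s →
    V (j - 2 ^ s) x → T.usft j s m a x = Xi S.P S.ω j (2 ^ s) m + S.P.pen j (2 ^ s) a x
  lab : ∀ R j i a s q κ m, 0 < j → j ≤ n → s ∈ S.scales j → V j a → q < S.mc.cnt s → κ < T.NB →
    m < S.P.M ^ 2 ^ s → T.lab R j i a s q κ m = (S.laneN h R j i a s q κ m).1
  Vlt : ∀ j a, j ≤ n → V j a → a < Am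
  vkids : ∀ j a, 0 < j → j ≤ n → V j a → ∀ a' ∈ S.kidsL j a, V (j - 1) a'
  vlabs : ∀ j a s m, 0 < j → j ≤ n → s ∈ S.scales j → V j a → m < S.P.M ^ 2 ^ s →
    ∀ x ∈ S.labs j s a m, V (j - 2 ^ s) x
  vlane : ∀ s q κ j a D coin m, 0 < j → j ≤ n → s ∈ S.scales j → V j a → q < S.mc.cnt s →
    m < S.P.M ^ 2 ^ s → V (j - 2 ^ s) (S.mc.lane s q κ j a D coin m).1

theorem flatMap_congr' {α β : Type*} {l : List α} {f g : α → List β} (h : ∀ a ∈ l, f a = g a) :
    l.flatMap f = l.flatMap g := by
  induction l with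
  | nil => rfl
  | cons a l ih =>
    rw [List.flatMap_cons, List.flatMap_cons, h a (by simp), ih fun a ha => h a (by simp [ha])]

theorem mem_scales_le {A : Type} {S : Strat A} {j s : ℕ} (hj : 0 < j) (hs : s ∈ S.scales j) :
    1 ≤ 2 ^ s ∧ 2 ^ s ≤ j := by
  obtain ⟨_, h2⟩ := Strat.mem_scales.1 hs
  exact ⟨Nat.one_le_two_pow, Nat.le_of_dvd hj h2⟩

/-- The table step on valid entries is the step of `RN`. -/
theorem step_eq {A : Type} {S : Strat A} {pos : ℕ → Prop} (hS : S.Loc pos) {h : Cell → A}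
    {T : TPar} {n I Am : ℕ} {V : ℕ → ℕ → Prop} (hT : TAgree S h T n I Am V) {R : LTab} {j i a b : ℕ}
    (hj : 0 < j) (hjn : j ≤ n) (ha : V j a) (hi : (i + 1) * S.P.M ^ j ≤ I) (hb : b + j < T.NB)
    (hR : ∀ l < j, ∀ i a b, V l a → (i + 1) * S.P.M ^ l ≤ I → b + l < T.NB →
      R l i a b = S.RN h l i a b) :
    T.step R j i a b = S.stepN h (S.RN h) j i a b := by
  have hM := hT.Mpos
  have hbase : T.base R j i a b = S.baseL (S.RN h) j i a b := by
    unfold TPar.base Strat.baseL
    rw [hT.M, hT.kids j a hj hjn ha]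
    refine flatMap_congr' fun m hm => flatMap_congr' fun a' ha' => ?_
    have hm := List.mem_range.1 hm
    rw [hT.sft j m a a' hj hjn ha hm ha']
    refine hR _ (by omega) _ _ _ (hT.vkids j a hj hjn ha a' ha') ?_ (by omega)
    calc (i * S.P.M + m + 1) * S.P.M ^ (j - 1) ≤ ((i + 1) * S.P.M) * S.P.M ^ (j - 1) := by
          apply Nat.mul_le_mul_right
          nlinarith
      _ = (i + 1) * S.P.M ^ j := by
          rw [mul_assoc, ← pow_succ', show j - 1 + 1 = j by omega]
      _ ≤ I := hi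
  have hunit : ∀ s ∈ S.scales j, ∀ m < S.P.M ^ 2 ^ s,
      (i * S.P.M ^ 2 ^ s + m + 1) * S.P.M ^ (j - 2 ^ s) ≤ I := by
    intro s hs m hm
    obtain ⟨h1, h2⟩ := mem_scales_le hj hs
    calc (i * S.P.M ^ 2 ^ s + m + 1) * S.P.M ^ (j - 2 ^ s)
        ≤ ((i + 1) * S.P.M ^ 2 ^ s) * S.P.M ^ (j - 2 ^ s) := by
          apply Nat.mul_le_mul_right
          nlinarith
      _ = (i + 1) * S.P.M ^ j := by
          rw [mul_assoc, ← pow_add, show 2 ^ s + (j - 2 ^ s) = j by omega]
      _ ≤ I := hi
  have hseen : T.seen R j i a b = S.seenL (S.RN h) j i a b := by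
    unfold TPar.seen Strat.seenL
    rw [hT.sc j hj hjn, min_eq_left (by omega)]
    refine flatMap_congr' fun s hs => flatMap_congr' fun κ hκ => ?_
    obtain ⟨h1, h2⟩ := mem_scales_le hj hs
    have hκ := List.mem_range.1 hκ
    rw [hT.pw j s hj hjn hs]
    refine flatMap_congr' fun m hm => ?_
    have hm := List.mem_range.1 hm
    rw [hT.labs j s a m hj hjn hs ha hm]
    refine flatMap_congr' fun x hx => ?_
    have hVx := hT.vlabs j a s m hj hjn hs ha hm x hx
    rw [hT.p2 j s hj hjn hs, hT.usft j s m a x hj hjn hs ha hm hVx]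
    refine hR _ (by omega) _ _ _ hVx (hunit s hs m hm) (by omega)
  have hlab : ∀ s ∈ S.scales j, ∀ q < S.mc.cnt s, ∀ κ < b, ∀ m < S.P.M ^ 2 ^ s,
      T.lab R j i a s q κ m = (S.laneN h (S.RN h) j i a s q κ m).1 := by
    intro s hs q hq κ hκ m hm
    obtain ⟨h1, h2⟩ := mem_scales_le hj hs
    rw [hT.lab R j i a s q κ m hj hjn hs ha hq (by omega) hm]
    unfold Strat.laneN
    obtain ⟨hs1, hs2⟩ := Strat.mem_scales.1 hs
    rw [hS.lane s q κ j a _ _ _ hs1 hs2 hj ?_ m hm]
    intro κ' hκ' m' hm' x hx u v _ _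
    unfold Strat.histN
    rw [hR (j - 2 ^ s) (by omega) _ _ _ (hT.vlabs j a s m' hj hjn hs ha hm' x hx)
      (hunit s hs m' hm') (by unfold Strat.un; omega)]
  have hlanes : T.lanes R j i a b = S.lanesL h (S.RN h) j i a b := by
    unfold TPar.lanes Strat.lanesL
    rw [hT.sc j hj hjn, min_eq_left (by omega)]
    refine flatMap_congr' fun s hs => ?_
    obtain ⟨h1, h2⟩ := mem_scales_le hj hs
    rw [hT.cn j s hj hjn hs]
    refine flatMap_congr' fun q hq => flatMap_congr' fun κ hκ => ?_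
    have hq := List.mem_range.1 hq
    have hκ := List.mem_range.1 hκ
    rw [hT.pw j s hj hjn hs]
    refine flatMap_congr' fun m hm => ?_
    have hm := List.mem_range.1 hm
    rw [hlab s hs q hq κ hκ m hm]
    have hVx : V (j - 2 ^ s) (S.laneN h (S.RN h) j i a s q κ m).1 :=
      hT.vlane _ _ _ _ _ _ _ _ hj hjn hs ha hq hm
    rw [hT.p2 j s hj hjn hs, hT.usft j s m a _ hj hjn hs ha hm hVx]
    refine hR _ (by omega) _ _ _ hVx (hunit s hs m hm) (by omega)
  unfold TPar.step Strat.stepN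
  rw [hbase, hseen, hlanes]

/-- The tables contain the lists `RN`. -/
theorem lookT_tabs {A : Type} {S : Strat A} {pos : ℕ → Prop} (hS : S.Loc pos) {h : Cell → A}
    {T : TPar} {n I Am : ℕ} {V : ℕ → ℕ → Prop} (hT : TAgree S h T n I Am V) (l : ℕ) :
    ∀ N, l ≤ N → N ≤ n → ∀ i a b, V l a → (i + 1) * S.P.M ^ l ≤ I → b + l < T.NB →
      lookT (T.tabs I Am N) l i a b = S.RN h l i a b := by
  have hM := hT.Mpos
  induction l using Nat.strong_induction_on with
  | _ l ih =>
    intro N hlN hN i a b ha hi hb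
    have hiI : i < I := by
      have : 1 ≤ S.P.M ^ l := Nat.one_le_pow _ _ hM
      nlinarith
    have haA := hT.Vlt l a (by omega) ha
    rcases l with _ | l
    · rw [T.lookT_zero I Am hiI haA (by omega), Strat.RN_zero, hT.H]
    · rw [T.lookT_succ I Am (by omega) hiI haA (by omega), Strat.RN_succ hS]
      refine step_eq hS hT (by omega) (by omega) ha hi hb ?_
      intro l' hl' i' a' b' ha' hi' hb'
      exact ih l' hl' l (by omega) (by omega) i' a' b' ha' hi' hb'

end Vale.Agent.P315.H207
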